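import Vale.Agent.P039.Disc

/-!
States and the cycle lemma.
-/

namespace Vale.Agent.P039

open Finset

universe u

namespace Tri

variable (T : Tri.{u}) (b0 : T.B)

/-- black faces other than the root face -/
abbrev Inner : Type u := {t : T.B // t ≠ b0}

/-- vertices not on the root face -/
def NonRoot (v : T.V) : Prop := ∀ e, T.blk e = b0 → T.tail e ≠ v

instance (v : T.V) : Decidable (T.NonRoot b0 v) := by unfold NonRoot; infer_instance

/-- a state chooses a corner in every inner black face, with distinct non-root vertices -/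
structure State (s : T.Inner b0 → T.E) : Prop where
  blk_eq : ∀ t, T.blk (s t) = t.1
  inj : ∀ t t', T.tail (s t) = T.tail (s t') → t = t'
  nonroot : ∀ t, T.NonRoot b0 (T.tail (s t))

lemma card_inner : Fintype.card (T.Inner b0) + 1 = Fintype.card T.B := by
  have : 0 < Fintype.card T.B := Fintype.card_pos_iff.2 ⟨b0⟩
  simp only [Inner, ne_eq, Fintype.card_subtype_compl, Fintype.card_unique]
  omega

lemma card_nonroot : (univ.filter (T.NonRoot b0)).card = Fintype.card (T.Inner b0) := by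
  have h1 : (univ.filter fun v => ¬ T.NonRoot b0 v) =
      (univ.filter fun e => T.blk e = b0).image T.tail := by
    ext v
    simp [NonRoot]
  have h2 : ((univ.filter fun e => T.blk e = b0).image T.tail).card = 3 := by
    rw [Finset.card_image_of_injOn, T.card_fiber_blk]
    intro e he e' he' h
    simp only [coe_filter, mem_univ, true_and, Set.mem_ofPred_eq] at he he'
    exact T.tail_inj_face (he.trans he'.symm) h
  have h3 := Finset.card_filter_add_card_filter_not (s := univ) (T.NonRoot b0)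
  rw [h1, h2, Finset.card_univ, T.card_V] at h3
  have := T.card_inner b0
  omega

variable {T b0}

lemma State.surj {s : T.Inner b0 → T.E} (hs : T.State b0 s) {v : T.V} (hv : T.NonRoot b0 v) :
    ∃ t, T.tail (s t) = v := by
  have h1 : univ.image (fun t => T.tail (s t)) = univ.filter (T.NonRoot b0) := by
    apply Finset.eq_of_subset_of_card_le
    · intro v hv
      obtain ⟨t, -, rfl⟩ := Finset.mem_image.1 hv
      simpa using hs.nonroot t
    · rw [T.card_nonroot, Finset.card_image_of_injective _ hs.inj, Finset.card_univ]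
  have : v ∈ univ.image (fun t => T.tail (s t)) := by rw [h1]; simpa using hv
  simpa using this

variable (T b0)

/-- a directed cycle running through corners `u t` to `u' t` of the faces in `C` -/
structure IsCyc (u u' : T.Inner b0 → T.E) (C : Finset (T.Inner b0))
    (π : T.Inner b0 → T.Inner b0) : Prop where
  ne : C.Nonempty
  maps : ∀ t ∈ C, π t ∈ C
  inj : ∀ t ∈ C, ∀ t' ∈ C, π t = π t' → t = t'
  step : ∀ t ∈ C, T.tail (u (π t)) = T.tail (u' t)
  min : ∀ J ⊆ C, J.Nonempty → (∀ t ∈ J, π t ∈ J) → J = C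

variable {T b0}

lemma IsCyc.const {u u' : T.Inner b0 → T.E} {C : Finset (T.Inner b0)}
    {π : T.Inner b0 → T.Inner b0} (h : T.IsCyc b0 u u' C π) {β : Type*} [DecidableEq β]
    (f : T.Inner b0 → β) (hf : ∀ t ∈ C, f (π t) = f t) {t t' : T.Inner b0} (ht : t ∈ C)
    (ht' : t' ∈ C) : f t' = f t := by
  have := h.min (C.filter fun x => f x = f t) (Finset.filter_subset _ _)
    ⟨t, by simp [ht]⟩ (fun x hx => by
      rw [Finset.mem_filter] at hx ⊢
      exact ⟨h.maps x hx.1, (hf x hx.1).trans hx.2⟩)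
  rw [← this] at ht'
  exact (Finset.mem_filter.1 ht').2

lemma IsCyc.image {u u' : T.Inner b0 → T.E} {C : Finset (T.Inner b0)}
    {π : T.Inner b0 → T.Inner b0} (h : T.IsCyc b0 u u' C π) : C.image π = C := by
  apply Finset.eq_of_subset_of_card_le
  · intro x hx
    obtain ⟨t, ht, rfl⟩ := Finset.mem_image.1 hx
    exact h.maps t ht
  · rw [Finset.card_image_of_injOn (fun a ha b hb => h.inj a ha b hb)]

lemma IsCyc.sum_comp {u u' : T.Inner b0 → T.E} {C : Finset (T.Inner b0)}
    {π : T.Inner b0 → T.Inner b0} (h : T.IsCyc b0 u u' C π) (f : T.Inner b0 → ℝ) :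
    ∑ t ∈ C, f (π t) = ∑ t ∈ C, f t := by
  conv_rhs => rw [← h.image]
  rw [Finset.sum_image (fun a ha b hb => h.inj a ha b hb)]

theorem cycle_lemma {u u' : T.Inner b0 → T.E} (hu : T.State b0 u)
    (hb : ∀ t, T.blk (u' t) = t.1) (hne : ∀ t, u' t ≠ u t)
    {C : Finset (T.Inner b0)} {π : T.Inner b0 → T.Inner b0} (h : T.IsCyc b0 u u' C π) :
    ∃ (σ : ℝ) (DB : Finset T.B) (DW : Finset T.W), (σ = 1 ∨ σ = -1) ∧ b0 ∉ DB ∧
      DW.card = DB.card + 1 ∧ ∀ α : T.E → ℝ,
        ∑ t ∈ C, T.eps (u t) (u' t) * α (T.gE (u t) (u' t)) =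
          σ * ∑ e, ((if T.blk e ∈ DB then 1 else 0) - (if T.wht e ∈ DW then 1 else 0)) * α e := by
  classical
  have hbb : ∀ t, T.blk (u' t) = T.blk (u t) := fun t => by rw [hb, hu.blk_eq]
  set g : T.Inner b0 → T.E := fun t => T.gE (u t) (u' t) with hg
  set ε : T.Inner b0 → ℝ := fun t => T.eps (u t) (u' t) with hε
  have hgb : ∀ t, T.blk (g t) = t.1 := fun t => by rw [hg, T.blk_gE (hbb t), hu.blk_eq]
  have hginj : ∀ t t', g t = g t' → t = t' := fun t t' h =>
    Subtype.ext (by rw [← hgb, h, hgb])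
  have hat : ∀ t v, T.At v (g t) ↔ T.tail (u t) = v ∨ T.tail (u' t) = v :=
    fun t v => T.at_gE_iff (hbb t) (hne t) v
  set z : T.E → ℝ := fun e => ∑ t ∈ C, if g t = e then ε t else 0 with hz
  have hzsum : ∀ α : T.E → ℝ, ∑ e, z e * α e = ∑ t ∈ C, ε t * α (g t) := by
    intro α
    simp_rw [hz, Finset.sum_mul]
    rw [Finset.sum_comm]
    refine Finset.sum_congr rfl fun t _ => ?_
    simp
  have hzg : ∀ t ∈ C, z (g t) = ε t := by
    intro t ht
    rw [hz]
    simp only
    rw [Finset.sum_eq_single t]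
    · simp
    · intro t' _ h'
      rw [if_neg (fun h'' => h' (hginj _ _ h''))]
    · intro h'; exact absurd ht h'
  have hz0 : ∀ e, (∀ t ∈ C, g t ≠ e) → z e = 0 := by
    intro e he
    exact Finset.sum_eq_zero fun t ht => if_neg (he t ht)
  have hcirc : T.IsCirc z := by
    intro f
    rw [hzsum, Finset.sum_congr rfl (g := fun t => f (T.tail (u (π t))) - f (T.tail (u t)))]
    · rw [Finset.sum_sub_distrib, h.sum_comp (fun t => f (T.tail (u t))), sub_self]
    · intro t ht
      rw [h.step t ht]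
      exact T.eps_df (hbb t) (hne t) f
  obtain ⟨φ, ψ, hφ0, hzb⟩ := T.exists_potential b0 z hcirc
  have hdiff : ∀ t ∈ C, φ t.1 - ψ (T.wht (g t)) = ε t := by
    intro t ht
    rw [← hzg t ht, hzb, bd, hgb]
  set ℓ : T.Inner b0 → ℝ := fun t => max (φ t.1) (ψ (T.wht (g t))) with hℓ
  have hℓv : ∀ t ∈ C, (φ t.1 = ℓ t ∧ ψ (T.wht (g t)) = ℓ t - 1) ∨
      (φ t.1 = ℓ t - 1 ∧ ψ (T.wht (g t)) = ℓ t) := by
    intro t ht
    have := hdiff t ht
    rcases T.eps_cases (u t) (u' t) with h1 | h1
    · have h2 : ℓ t = φ t.1 := max_eq_left (by simp only [hε] at this; linarith)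
      left; simp only [hε] at this; constructor <;> linarith
    · have h2 : ℓ t = ψ (T.wht (g t)) := max_eq_right (by simp only [hε] at this; linarith)
      right; simp only [hε] at this; constructor <;> linarith
  set χ : ℝ → ℝ → ℝ := fun L x => if x = L ∨ x = L - 1 then 1 else 0 with hχ
  have hχ1 : ∀ L x, χ L x = 1 → x = L ∨ x = L - 1 := by
    intro L x hx
    by_contra hc
    simp [hχ, hc] at hx
  have hχg : ∀ t ∈ C, χ (ℓ t) (φ t.1) = 1 ∧ χ (ℓ t) (ψ (T.wht (g t))) = 1 := by
    intro t ht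
    rcases hℓv t ht with ⟨h1, h2⟩ | ⟨h1, h2⟩ <;> simp [hχ, h1, h2]
  have hℓπ : ∀ t ∈ C, ℓ (π t) = ℓ t := by
    intro t ht
    have hπt := h.maps t ht
    set v := T.tail (u (π t)) with hv
    have hall := T.link_one v (fun b => χ (ℓ (π t)) (φ b)) (fun w => χ (ℓ (π t)) (ψ w)) (g t)
      (fun e hev hne' => by
        by_cases he : e = g (π t)
        · rw [he, hgb, (hχg _ hπt).1, (hχg _ hπt).2]
        · have : z e = 0 := hz0 e (fun t'' ht'' hc => by
            rw [← hc, hat] at hev
            rcases hev with h1 | h1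
            · exact he (by rw [← hc, hu.inj _ _ h1])
            · rw [← h.step t'' ht''] at h1
              exact hne' (by rw [← hc, h.inj _ ht'' _ ht (hu.inj _ _ h1)]))
          rw [hzb, bd, sub_eq_zero] at this
          simp only [this])
    have a1 : T.At v (g t) := (hat t v).2 (Or.inr (h.step t ht).symm)
    have a2 : T.At v (g (π t)) := (hat _ v).2 (Or.inl rfl)
    have b1 := T.link_all v (fun b => χ (ℓ (π t)) (φ b)) (fun w => χ (ℓ (π t)) (ψ w)) hall a1 a2
    have b2 := hall _ a1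
    simp only [hgb] at b1 b2
    rw [(hχg _ hπt).1] at b1
    rw [b1] at b2
    have c1 := hχ1 _ _ b1
    have c2 := hχ1 _ _ b2.symm
    rcases hℓv t ht with ⟨h1, h2⟩ | ⟨h1, h2⟩ <;> rcases c1 with c1 | c1 <;>
      rcases c2 with c2 | c2 <;> linarith
  obtain ⟨t0, ht0⟩ := h.ne
  set L := ℓ t0 with hL
  have hℓc : ∀ t ∈ C, ℓ t = L := fun t ht => h.const ℓ hℓπ ht0 ht
  have hglob := T.conn (fun b => χ L (φ b)) (fun w => χ L (ψ w)) (fun e => by
    by_cases he : ∃ t ∈ C, g t = e
    · obtain ⟨t, ht, rfl⟩ := he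
      rw [hgb, ← hℓc t ht, (hχg _ ht).1, (hχg _ ht).2]
    · have : z e = 0 := hz0 e (fun t ht hc => he ⟨t, ht, hc⟩)
      rw [hzb, bd, sub_eq_zero] at this
      simp only [this])
  have hφv : ∀ b, φ b = L ∨ φ b = L - 1 := fun b =>
    hχ1 _ _ ((hglob b _).trans (hχg t0 ht0).2)
  have hψv : ∀ w, ψ w = L ∨ ψ w = L - 1 := fun w =>
    hχ1 _ _ ((hglob _ w).symm.trans (hχg t0 ht0).1)
  obtain ⟨σ, hσ, hφσ, hψσ⟩ : ∃ σ : ℝ, (σ = 1 ∨ σ = -1) ∧ (∀ b, φ b = 0 ∨ φ b = σ) ∧
      (∀ w, ψ w = 0 ∨ ψ w = σ) := by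
    rcases hφv b0 with h1 | h1
    · refine ⟨-1, Or.inr rfl, fun b => ?_, fun w => ?_⟩
      · rcases hφv b with h2 | h2
        · left; linarith
        · right; linarith
      · rcases hψv w with h2 | h2
        · left; linarith
        · right; linarith
    · refine ⟨1, Or.inl rfl, fun b => ?_, fun w => ?_⟩
      · rcases hφv b with h2 | h2
        · right; linarith
        · left; linarith
      · rcases hψv w with h2 | h2
        · right; linarith
        · left; linarith
  have hσ0 : σ ≠ 0 := by rcases hσ with h | h <;> rw [h] <;> norm_num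
  set DB : Finset T.B := univ.filter fun b => φ b ≠ 0 with hDB
  set DW : Finset T.W := univ.filter fun w => ψ w ≠ 0 with hDW
  have hφD : ∀ b, φ b = σ * if b ∈ DB then 1 else 0 := by
    intro b
    rcases hφσ b with h1 | h1 <;> simp [hDB, h1, hσ0]
  have hψD : ∀ w, ψ w = σ * if w ∈ DW then 1 else 0 := by
    intro w
    rcases hψσ w with h1 | h1 <;> simp [hDW, h1, hσ0]
  have hb0 : b0 ∉ DB := by simp [hDB, hφ0]
  have hcut : T.cut DB DW = C.image g := by
    ext e
    rw [T.mem_cut, Finset.mem_image]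
    have h1 := hzb e
    rw [bd, hφD, hψD] at h1
    constructor
    · intro hc
      by_contra hc'
      rw [hz0 e (fun t ht h' => hc' ⟨t, ht, h'⟩)] at h1
      by_cases h2 : T.blk e ∈ DB <;> by_cases h3 : T.wht e ∈ DW
      · exact hc (iff_of_true h2 h3)
      · simp only [h2, h3, if_true, if_false] at h1
        exact hσ0 (by linarith)
      · simp only [h2, h3, if_true, if_false] at h1
        exact hσ0 (by linarith)
      · exact hc (iff_of_false h2 h3)
    · rintro ⟨t, ht, rfl⟩ hc
      rw [hzg t ht] at h1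
      simp only [hc, sub_self] at h1
      rcases T.eps_cases (u t) (u' t) with h2 | h2 <;> simp only [hε, h2] at h1 <;>
        norm_num at h1
  have hgcut : ∀ t ∈ C, ¬ (t.1 ∈ DB ↔ T.wht (g t) ∈ DW) := by
    intro t ht
    have : g t ∈ T.cut DB DW := by rw [hcut]; exact Finset.mem_image_of_mem _ ht
    rwa [T.mem_cut, hgb] at this
  have hdisc := T.disc DB DW (by
      by_cases h1 : t0.1 ∈ DB
      · exact Or.inl ⟨_, h1⟩
      · exact Or.inr ⟨T.wht (g t0), by have := hgcut t0 ht0; tauto⟩)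
    (Or.inl ⟨b0, hb0⟩) (by
      intro f hf
      have h1 : ∀ t ∈ C, f (T.tail (u' t)) = f (T.tail (u t)) := by
        intro t ht
        have := T.eps_df (hbb t) (hne t) f
        rw [hf (g t) (by rw [hcut]; exact Finset.mem_image_of_mem _ ht), mul_zero] at this
        linarith
      have h2 : ∀ t ∈ C, f (T.tail (g t)) = f (T.tail (u t0)) := by
        intro t ht
        rw [← h.const (fun t => f (T.tail (u t))) (fun t ht => by rw [h.step t ht, h1 t ht])
          ht0 ht]
        rcases (hat t _).1 (Or.inl rfl) with h3 | h3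
        · rw [← h3]
        · rw [← h3, h1 t ht]
      intro e he e' he'
      rw [hcut] at he he'
      obtain ⟨t, ht, rfl⟩ := Finset.mem_image.1 he
      obtain ⟨t', ht', rfl⟩ := Finset.mem_image.1 he'
      rw [h2 t ht, h2 t' ht'])
    (C.image fun t => T.tail (u t)) (by
      intro v hv
      obtain ⟨t, ht, rfl⟩ := Finset.mem_image.1 hv
      exact ⟨g t, by rw [hcut]; exact Finset.mem_image_of_mem _ ht, (hat t _).2 (Or.inl rfl)⟩)
    (by
      rw [hcut, Finset.card_image_of_injective _ hu.inj]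
      exact Finset.card_image_le)
  have hLw : (univ.filter fun e => T.blk e ∉ DB ∧ T.wht e ∈ DW) =
      (C.filter fun t => t.1 ∉ DB).image g := by
    ext e
    simp only [Finset.mem_filter, Finset.mem_univ, true_and, Finset.mem_image]
    constructor
    · rintro ⟨h1, h2⟩
      have : e ∈ T.cut DB DW := T.mem_cut.2 (by tauto)
      rw [hcut] at this
      obtain ⟨t, ht, rfl⟩ := Finset.mem_image.1 this
      exact ⟨t, ⟨ht, by rwa [hgb] at h1⟩, rfl⟩
    · rintro ⟨t, ⟨ht, h1⟩, rfl⟩
      have := hgcut t ht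
      rw [hgb]
      tauto
  have hVD : T.VD DB DW =
      ((univ.filter fun t : T.Inner b0 => t.1 ∈ DB) ∪ C.filter fun t => t.1 ∉ DB).image
        fun t => T.tail (u t) := by
    ext v
    simp only [Finset.mem_image, Finset.mem_union, Finset.mem_filter, Finset.mem_univ, true_and]
    constructor
    · intro hv
      obtain ⟨e, he, hev⟩ := Finset.mem_image.1 hv
      by_cases hx : ∃ x ∈ T.cut DB DW, T.At v x
      · obtain ⟨x, hx, hxv⟩ := hx
        rw [hcut] at hx
        obtain ⟨t, ht, rfl⟩ := Finset.mem_image.1 hx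
        rcases (hat t v).1 hxv with h3 | h3
        · exact ⟨t, by tauto, h3⟩
        · have := h.maps t ht
          exact ⟨π t, by tauto, (h.step t ht).trans h3⟩
      · have hin : ∀ e', T.At v e' → T.blk e' ∈ DB := by
          intro e' he'
          by_contra hc
          exact hx (T.mixed (Or.inl hev) he' (T.mem_ED.1 he) (Or.inl hc))
        have hnr : T.NonRoot b0 v := fun e' h1 h2 => hb0 (h1 ▸ hin e' (Or.inl h2))
        obtain ⟨t, ht⟩ := hu.surj hnr
        exact ⟨t, Or.inl (by rw [← hu.blk_eq t]; exact hin _ (Or.inl ht)), ht⟩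
    · rintro ⟨t, h1 | ⟨h1, h2⟩, rfl⟩
      · exact T.mem_VD_of_at (T.mem_ED.2 (Or.inl (by rwa [hu.blk_eq]))) (Or.inl rfl)
      · refine T.mem_VD_of_at (e := g t) (T.mem_ED.2 (Or.inr ?_)) ((hat t _).2 (Or.inl rfl))
        have := hgcut t h1
        tauto
  have hDBc : (univ.filter fun t : T.Inner b0 => t.1 ∈ DB).card = DB.card := by
    refine Finset.card_bij (fun t _ => t.1) (fun t ht => by simpa using ht)
      (fun a _ b _ h => Subtype.ext h) (fun b hb => ⟨⟨b, fun h => hb0 (h ▸ hb)⟩, by simpa, rfl⟩)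
  rw [T.card_ED, hLw, hVD, Finset.card_image_of_injective _ hu.inj,
    Finset.card_image_of_injective _ hginj, Finset.card_union_of_disjoint (by
      rw [Finset.disjoint_left]
      intro t h1 h2
      exact (Finset.mem_filter.1 h2).2 (Finset.mem_filter.1 h1).2), hDBc] at hdisc
  refine ⟨σ, DB, DW, hσ, hb0, by omega, fun α => ?_⟩
  rw [← hzsum, Finset.mul_sum]
  refine Finset.sum_congr rfl fun e _ => ?_
  rw [hzb, bd, hφD, hψD]
  ring

/-- a finite nonempty set in which every element has a predecessor contains a cycle -/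
lemma exists_cyc {u u' : T.Inner b0 → T.E} (hu : T.State b0 u)
    (A : Finset (T.Inner b0)) (hA : A.Nonempty)
    (hpred : ∀ t ∈ A, ∃ t' ∈ A, T.tail (u' t') = T.tail (u t)) :
    ∃ C π, T.IsCyc b0 u u' C π := by
  classical
  obtain ⟨C, hC, hmin⟩ := Finset.exists_min_image
    (univ.filter fun A : Finset (T.Inner b0) =>
      A.Nonempty ∧ ∀ t ∈ A, ∃ t' ∈ A, T.tail (u' t') = T.tail (u t)) Finset.card
    ⟨A, Finset.mem_filter.2 ⟨Finset.mem_univ _, hA, hpred⟩⟩
  simp only [Finset.mem_filter, Finset.mem_univ, true_and] at hC hmin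
  obtain ⟨hCne, hCp⟩ := hC
  choose! ρ hρC hρ using hCp
  have hρinj : ∀ t ∈ C, ∀ t' ∈ C, ρ t = ρ t' → t = t' := fun t ht t' ht' h =>
    hu.inj _ _ (by rw [← hρ t ht, h, hρ t' ht'])
  have hρim : C.image ρ = C := by
    apply Finset.eq_of_subset_of_card_le
    · intro x hx
      obtain ⟨t, ht, rfl⟩ := Finset.mem_image.1 hx
      exact hρC t ht
    · rw [Finset.card_image_of_injOn (fun a ha b hb => hρinj a ha b hb)]
  have hsurj : ∀ t ∈ C, ∃ t' ∈ C, ρ t' = t := fun t ht => by
    rw [← hρim] at ht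
    simpa using ht
  choose! π hπC hπ using hsurj
  have hstep : ∀ t ∈ C, T.tail (u (π t)) = T.tail (u' t) := fun t ht => by
    rw [← hρ _ (hπC t ht), hπ t ht]
  have hπinj : ∀ t ∈ C, ∀ t' ∈ C, π t = π t' → t = t' := fun t ht t' ht' h => by
    rw [← hπ t ht, h, hπ t' ht']
  refine ⟨C, π, hCne, hπC, hπinj, hstep, fun J hJ hJne hJπ => ?_⟩
  have hJim : J.image π = J := by
    apply Finset.eq_of_subset_of_card_le
    · intro x hx
      obtain ⟨t, ht, rfl⟩ := Finset.mem_image.1 hx
      exact hJπ t ht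
    · rw [Finset.card_image_of_injOn (fun a ha b hb => hπinj a (hJ ha) b (hJ hb))]
  refine Finset.eq_of_subset_of_card_le hJ (hmin J ⟨hJne, fun t ht => ?_⟩)
  rw [← hJim] at ht
  obtain ⟨t', ht', rfl⟩ := Finset.mem_image.1 ht
  exact ⟨t', ht', (hstep t' (hJ ht')).symm⟩

/-- without cycles, a circulation supported on the chosen edges and the root face
vanishes on the chosen edges -/
lemma circ_vanish {u u' : T.Inner b0 → T.E} (hu : T.State b0 u)
    (hb : ∀ t, T.blk (u' t) = t.1) (hne : ∀ t, u' t ≠ u t)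
    (hno : ¬ ∃ C π, T.IsCyc b0 u u' C π) (z : T.E → ℝ) (hz : T.IsCirc z)
    (hs : ∀ e, z e ≠ 0 → T.blk e = b0 ∨ ∃ t, e = T.gE (u t) (u' t)) (t : T.Inner b0) :
    z (T.gE (u t) (u' t)) = 0 := by
  classical
  by_contra hc
  have hbb : ∀ t, T.blk (u' t) = T.blk (u t) := fun t => by rw [hb, hu.blk_eq]
  refine hno (exists_cyc hu (univ.filter fun t => z (T.gE (u t) (u' t)) ≠ 0)
    ⟨t, by simpa using hc⟩ fun t1 ht1 => ?_)
  by_contra hcon
  simp only [Finset.mem_filter, Finset.mem_univ, true_and] at ht1 hcon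
  refine ht1 (T.circ_one (T.tail (u t1)) z hz _
    ((T.at_gE_iff (hbb t1) (hne t1) _).2 (Or.inl rfl)) fun e he hne' => ?_)
  by_contra hze
  rcases hs e hze with h1 | ⟨t2, rfl⟩
  · rcases he with h2 | h2
    · exact hu.nonroot t1 e h1 h2
    · exact hu.nonroot t1 (T.nb e) (by rw [T.blk_nb, h1]) h2
  · rcases (T.at_gE_iff (hbb t2) (hne t2) _).1 he with h2 | h2
    · exact hne' (by rw [hu.inj _ _ h2])
    · exact hcon ⟨t2, hze, h2⟩

end Tri

end Vale.Agent.P039
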