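import Vale.Agent.P039.Tri

/-!
The Euler count for a disc bounded by a simple closed curve.
-/

namespace Vale.Agent.P039

open Finset

universe u

namespace Tri

variable (T : Tri.{u})

/-- edges with exactly one side in the region -/
def cut (DB : Finset T.B) (DW : Finset T.W) : Finset T.E :=
  univ.filter fun e => ¬ (T.blk e ∈ DB ↔ T.wht e ∈ DW)

/-- edges with at least one side in the region -/
def ED (DB : Finset T.B) (DW : Finset T.W) : Finset T.E :=
  univ.filter fun e => T.blk e ∈ DB ∨ T.wht e ∈ DW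

/-- vertices of the closed region -/
def VD (DB : Finset T.B) (DW : Finset T.W) : Finset T.V := (T.ED DB DW).image T.tail

lemma mem_cut {DB : Finset T.B} {DW : Finset T.W} {e : T.E} :
    e ∈ T.cut DB DW ↔ ¬ (T.blk e ∈ DB ↔ T.wht e ∈ DW) := by simp [cut]

lemma mem_ED {DB : Finset T.B} {DW : Finset T.W} {e : T.E} :
    e ∈ T.ED DB DW ↔ T.blk e ∈ DB ∨ T.wht e ∈ DW := by simp [ED]

lemma mem_VD_of_at {DB : Finset T.B} {DW : Finset T.W} {e : T.E} {v : T.V}
    (he : e ∈ T.ED DB DW) (hv : T.At v e) : v ∈ T.VD DB DW := by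
  rcases hv with hv | hv
  · exact Finset.mem_image.2 ⟨e, he, hv⟩
  · rcases T.mem_ED.1 he with h | h
    · exact Finset.mem_image.2 ⟨T.nb e, T.mem_ED.2 (Or.inl (by simpa using h)), hv⟩
    · exact Finset.mem_image.2 ⟨T.nw e, T.mem_ED.2 (Or.inr (by simpa using h)),
        by rw [T.tail_n, hv]⟩

lemma mixed {DB : Finset T.B} {DW : Finset T.W} {v : T.V} {e e' : T.E}
    (he : T.At v e) (he' : T.At v e') (h1 : T.blk e ∈ DB ∨ T.wht e ∈ DW)
    (h2 : T.blk e' ∉ DB ∨ T.wht e' ∉ DW) : ∃ x ∈ T.cut DB DW, T.At v x := by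
  by_contra hcon
  push Not at hcon
  have hall : ∀ x, T.At v x → (T.blk x ∈ DB ↔ T.wht x ∈ DW) := by
    intro x hx
    by_contra h
    exact hcon x (T.mem_cut.2 h) hx
  have := T.link_all v (fun b => if b ∈ DB then 1 else 0) (fun w => if w ∈ DW then 1 else 0)
    (fun x hx => by simp only [hall x hx]) he he'
  have a1 : T.blk e ∈ DB := h1.elim id (hall e he).2
  have a2 : T.blk e' ∉ DB := h2.elim id (fun h h' => h ((hall e' he').1 h'))
  simp [a1, a2] at this

lemma cut_nonempty {DB : Finset T.B} {DW : Finset T.W}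
    (hin : (∃ b, b ∈ DB) ∨ (∃ w, w ∈ DW)) (hout : (∃ b, b ∉ DB) ∨ (∃ w, w ∉ DW)) :
    (T.cut DB DW).Nonempty := by
  by_contra hcon
  rw [Finset.not_nonempty_iff_eq_empty] at hcon
  have hall : ∀ x, (T.blk x ∈ DB ↔ T.wht x ∈ DW) := by
    intro x
    by_contra h
    have := T.mem_cut.2 h
    simp [hcon] at this
  have h := T.conn (fun b => if b ∈ DB then 1 else 0) (fun w => if w ∈ DW then 1 else 0)
    (fun x => by simp only [hall x])
  have h' : ∀ b w, b ∈ DB ↔ w ∈ DW := by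
    intro b w
    have := h b w
    by_cases hb : b ∈ DB <;> by_cases hw : w ∈ DW <;> simp_all
  have hin' : ∃ e, T.blk e ∈ DB := by
    rcases hin with ⟨b, hb⟩ | ⟨w, hw⟩
    · obtain ⟨e, rfl⟩ := T.blk_surj b; exact ⟨e, hb⟩
    · obtain ⟨e, rfl⟩ := T.wht_surj w; exact ⟨e, (hall e).2 hw⟩
  obtain ⟨e, he⟩ := hin'
  rcases hout with ⟨b, hb⟩ | ⟨w, hw⟩
  · exact hb ((h' b (T.wht e)).2 ((hall e).1 he))
  · exact hw ((h' _ w).1 he)

lemma disc_le (DB : Finset T.B) (DW : Finset T.W)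
    (hin : (∃ b, b ∈ DB) ∨ (∃ w, w ∈ DW)) (hout : (∃ b, b ∉ DB) ∨ (∃ w, w ∉ DW))
    (hZ : ∀ f : T.V → ℝ, (∀ e ∈ T.cut DB DW, T.df f e = 0) →
      ∀ e ∈ T.cut DB DW, ∀ e' ∈ T.cut DB DW, f (T.tail e) = f (T.tail e')) :
    DB.card + DW.card + (T.VD DB DW).card ≤ (T.ED DB DW).card + 1 := by
  refine T.dim_ineq DB DW _ _ hout (fun e he => T.mem_ED.2 he) ?_
  intro f hf
  obtain ⟨e0, he0⟩ := T.cut_nonempty hin hout
  have hsub : ∀ e ∈ T.cut DB DW, e ∈ T.ED DB DW := by
    intro e he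
    rw [T.mem_cut] at he
    rw [T.mem_ED]
    tauto
  have hc : ∀ v, ∀ x ∈ T.cut DB DW, T.At v x → f v = f (T.tail e0) := by
    intro v x hx hv
    rw [← hZ f (fun e he => hf e (hsub e he)) x hx e0 he0]
    rcases hv with rfl | rfl
    · rfl
    · exact sub_eq_zero.1 (hf x (hsub x hx))
  set g : T.V → ℝ := fun v => if v ∈ T.VD DB DW then f v else f (T.tail e0) with hg
  have hdg : ∀ e, T.df g e = 0 := by
    intro e
    by_cases he : e ∈ T.ED DB DW
    · have h1 := T.mem_VD_of_at he (Or.inl rfl)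
      have h2 := T.mem_VD_of_at he (Or.inr rfl)
      have := hf e he
      simpa [df, hg, h1, h2] using this
    · have key : ∀ v, T.At v e → g v = f (T.tail e0) := by
        intro v hv
        by_cases hvd : v ∈ T.VD DB DW
        · obtain ⟨e1, he1, rfl⟩ := Finset.mem_image.1 hvd
          have hne : T.blk e ∉ DB := fun h => he (T.mem_ED.2 (Or.inl h))
          obtain ⟨x, hx, hxv⟩ := T.mixed (Or.inl rfl) hv (T.mem_ED.1 he1) (Or.inl hne)
          simp only [hg, hvd, if_true]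
          exact hc _ x hx hxv
        · simp [hg, hvd]
      unfold df
      rw [key _ (Or.inr rfl), key _ (Or.inl rfl), sub_self]
  intro u hu u' hu'
  have := T.vconn g hdg u u'
  simpa [hg, hu, hu'] using this

lemma cut_compl (DB : Finset T.B) (DW : Finset T.W) : T.cut DBᶜ DWᶜ = T.cut DB DW := by
  ext e
  simp only [mem_cut, Finset.mem_compl]
  tauto

theorem disc (DB : Finset T.B) (DW : Finset T.W)
    (hin : (∃ b, b ∈ DB) ∨ (∃ w, w ∈ DW)) (hout : (∃ b, b ∉ DB) ∨ (∃ w, w ∉ DW))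
    (hZ : ∀ f : T.V → ℝ, (∀ e ∈ T.cut DB DW, T.df f e = 0) →
      ∀ e ∈ T.cut DB DW, ∀ e' ∈ T.cut DB DW, f (T.tail e) = f (T.tail e'))
    (VZ : Finset T.V) (hVZ : ∀ v ∈ VZ, ∃ e ∈ T.cut DB DW, T.At v e)
    (hcard : (T.cut DB DW).card ≤ VZ.card) :
    DB.card + DW.card + (T.VD DB DW).card = (T.ED DB DW).card + 1 := by
  have h1 := T.disc_le DB DW hin hout hZ
  have h2 := T.disc_le DBᶜ DWᶜ (by simpa using hout) (by simpa using hin)
    (by rw [T.cut_compl]; exact hZ)
  have h3 := Finset.card_union_add_card_inter (T.ED DB DW) (T.ED DBᶜ DWᶜ)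
  have h4 := Finset.card_union_add_card_inter (T.VD DB DW) (T.VD DBᶜ DWᶜ)
  have h5 : (T.ED DB DW ∪ T.ED DBᶜ DWᶜ).card ≤ Fintype.card T.E := Finset.card_le_univ _
  have h6 : T.ED DB DW ∩ T.ED DBᶜ DWᶜ = T.cut DB DW := by
    ext e
    simp only [Finset.mem_inter, mem_ED, mem_cut, Finset.mem_compl]
    tauto
  have h7 : T.VD DB DW ∪ T.VD DBᶜ DWᶜ = univ := by
    refine Finset.eq_univ_of_forall fun v => ?_
    obtain ⟨e, rfl⟩ := T.tail_surj v
    rw [Finset.mem_union]
    by_cases h : T.blk e ∈ DB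
    · exact Or.inl (T.mem_VD_of_at (T.mem_ED.2 (Or.inl h)) (Or.inl rfl))
    · exact Or.inr (T.mem_VD_of_at (T.mem_ED.2 (Or.inl (by simpa using h))) (Or.inl rfl))
  have h8 : VZ.card ≤ (T.VD DB DW ∩ T.VD DBᶜ DWᶜ).card := by
    refine Finset.card_le_card fun v hv => ?_
    obtain ⟨e, he, hev⟩ := hVZ v hv
    rw [← h6, Finset.mem_inter] at he
    exact Finset.mem_inter.2 ⟨T.mem_VD_of_at he.1 hev, T.mem_VD_of_at he.2 hev⟩
  rw [h6] at h3
  rw [h7, Finset.card_univ] at h4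
  have h9 := Finset.card_add_card_compl DB
  have h10 := Finset.card_add_card_compl DW
  have := T.euler
  omega

lemma card_ED (DB : Finset T.B) (DW : Finset T.W) :
    (T.ED DB DW).card =
      3 * DB.card + (univ.filter fun e => T.blk e ∉ DB ∧ T.wht e ∈ DW).card := by
  rw [← T.card_filter_blk DB, ← Finset.card_union_of_disjoint]
  · congr 1
    ext e
    simp only [mem_ED, Finset.mem_union, Finset.mem_filter, Finset.mem_univ, true_and]
    tauto
  · rw [Finset.disjoint_filter]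
    tauto

/-- the edge of a black face joining two of its corners -/
def gE (a a' : T.E) : T.E := if a' = T.nb a then a else a'

/-- the sign of the step from the corner `a` to the corner `a'` -/
def eps (a a' : T.E) : ℝ := if a' = T.nb a then 1 else -1

lemma corner_cases {a a' : T.E} (hb : T.blk a' = T.blk a) (hne : a' ≠ a) :
    (a' = T.nb a ∧ T.gE a a' = a ∧ T.eps a a' = 1) ∨
      (a' = T.nb (T.nb a) ∧ a = T.nb a' ∧ T.gE a a' = a' ∧ T.eps a a' = -1) := by
  rcases (T.blk_eq a a').1 hb with h | h | h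
  · exact absurd h hne
  · left; simp [gE, eps, h]
  · right
    have h' : a' ≠ T.nb a := by rw [h]; exact T.nb2_ne_nb a
    refine ⟨h, by rw [h, T.nb3], by simp [gE, h'], by simp [eps, h']⟩

lemma blk_gE {a a' : T.E} (hb : T.blk a' = T.blk a) : T.blk (T.gE a a') = T.blk a := by
  unfold gE; split_ifs
  · rfl
  · exact hb

lemma eps_df {a a' : T.E} (hb : T.blk a' = T.blk a) (hne : a' ≠ a) (f : T.V → ℝ) :
    T.eps a a' * T.df f (T.gE a a') = f (T.tail a') - f (T.tail a) := by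
  rcases T.corner_cases hb hne with ⟨h1, h2, h3⟩ | ⟨-, h1, h2, h3⟩
  · rw [h2, h3, df, ← h1, one_mul]
  · rw [h2, h3, df, ← h1]; ring

lemma at_gE_iff {a a' : T.E} (hb : T.blk a' = T.blk a) (hne : a' ≠ a) (v : T.V) :
    T.At v (T.gE a a') ↔ T.tail a = v ∨ T.tail a' = v := by
  rcases T.corner_cases hb hne with ⟨h1, h2, -⟩ | ⟨-, h1, h2, -⟩
  · rw [h2, At, ← h1]
  · rw [h2, At, ← h1, or_comm]

lemma eps_cases (a a' : T.E) : T.eps a a' = 1 ∨ T.eps a a' = -1 := by
  unfold eps; split_ifs <;> simp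

end Tri

end Vale.Agent.P039
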