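import Vale.Agent.P039.Irred

/-!
Cutting along separating triangles, and the induction.
-/

namespace Vale.Agent.P039

open Finset

universe u

namespace Tri

variable {T : Tri.{u}}

lemma Good.sum_blk {M : Finset T.E} (h : T.Good M) (g : T.B → ZMod 2) :
    ∑ e ∈ Mᶜ, g (T.blk e) = 0 := by
  rw [← Finset.sum_fiberwise Mᶜ T.blk]
  refine Finset.sum_eq_zero fun b _ => ?_
  obtain ⟨e, ⟨h1, h2⟩, h3⟩ := h.blk1 b
  have h4 : (Mᶜ.filter fun e => T.blk e = b) = (univ.filter fun e => T.blk e = b).erase e := by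
    ext e'
    simp only [Finset.mem_filter, Finset.mem_compl, Finset.mem_erase, Finset.mem_univ, true_and]
    constructor
    · rintro ⟨a1, a2⟩
      exact ⟨fun a3 => a1 (a3 ▸ h1), a2⟩
    · rintro ⟨a1, a2⟩
      exact ⟨fun a3 => a1 (h3 e' ⟨a3, a2⟩), a2⟩
  rw [Finset.sum_congr rfl (g := fun _ => g b) (fun e he => by rw [(Finset.mem_filter.1 he).2]),
    Finset.sum_const, h4,
    Finset.card_erase_of_mem (Finset.mem_filter.2 ⟨Finset.mem_univ e, h2⟩), T.card_fiber_blk]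
  generalize g b = x
  revert x
  decide

lemma Good.conn1 {M : Finset T.E} (h : T.Good M) (e1 : T.E) (φ : T.B → ℝ) (ψ : T.W → ℝ)
    (hh : ∀ e, e ∉ M → e ≠ e1 → φ (T.blk e) = ψ (T.wht e)) (b : T.B) (w : T.W) : φ b = ψ w := by
  classical
  refine h.conn φ ψ (fun e he => ?_) b w
  by_cases h1 : e = e1
  · subst h1
    by_contra hne
    have a1 := h.sum_blk (fun b => if φ b = φ (T.blk e) then 1 else 0)
    have a2 : ∑ e' ∈ Mᶜ, (if ψ (T.wht e') = φ (T.blk e) then (1 : ZMod 2) else 0) = 0 :=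
      h.swap.sum_blk (fun w => if ψ w = φ (T.blk e) then 1 else 0)
    have hm : e ∈ Mᶜ := Finset.mem_compl.2 he
    rw [← Finset.add_sum_erase _ _ hm] at a1 a2
    have a3 : ∑ e' ∈ Mᶜ.erase e, (if φ (T.blk e') = φ (T.blk e) then (1 : ZMod 2) else 0) =
        ∑ e' ∈ Mᶜ.erase e, (if ψ (T.wht e') = φ (T.blk e) then (1 : ZMod 2) else 0) :=
      Finset.sum_congr rfl fun e' he' => by
        rw [hh e' (Finset.mem_compl.1 (Finset.mem_of_mem_erase he')) (Finset.ne_of_mem_erase he')]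
    rw [a3, if_pos rfl] at a1
    rw [if_neg (fun h => hne h.symm), zero_add] at a2
    rw [a2] at a1
    exact absurd a1 (by decide)
  · exact hh e he h1

lemma three_cycle {α : Type*} [DecidableEq α] {S : Finset α} (hS : S.card = 3) {f : α → α}
    (h1 : ∀ x ∈ S, f x ∈ S) (h2 : ∀ x ∈ S, f x ≠ x) (h3 : ∀ x ∈ S, f (f x) ≠ x) {x : α}
    (hx : x ∈ S) : f (f (f x)) = x ∧ ∀ y ∈ S, y = x ∨ y = f x ∨ y = f (f x) := by
  have a1 := h1 x hx
  have a2 := h1 _ a1
  have a3 := h1 _ a2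
  have hsub : ({x, f x, f (f x)} : Finset α) = S := by
    apply Finset.eq_of_subset_of_card_le
    · intro y hy
      simp only [Finset.mem_insert, Finset.mem_singleton] at hy
      rcases hy with rfl | rfl | rfl <;> assumption
    · rw [hS, Finset.card_eq_three.2 ⟨x, f x, f (f x), (h2 x hx).symm, (h3 x hx).symm,
        (h2 _ a1).symm, rfl⟩]
  have key : ∀ y ∈ S, y = x ∨ y = f x ∨ y = f (f x) := fun y hy => by
    rw [← hsub] at hy
    simpa using hy
  refine ⟨?_, key⟩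
  rcases key _ a3 with h | h | h
  · exact h
  · exact absurd h (h3 _ a1)
  · exact absurd h (h2 _ a2)

variable (T)

/-- a region bounded by a directed triangle, with black faces along the inner side -/
structure Sep (DB : Finset T.B) (DW : Finset T.W) (nc : T.E → T.E) : Prop where
  sub : ∀ e, T.wht e ∈ DW → T.blk e ∈ DB
  card : (T.cut DB DW).card = 3
  out : ∃ b, b ∉ DB
  mem : ∀ e ∈ T.cut DB DW, nc e ∈ T.cut DB DW
  ne : ∀ e ∈ T.cut DB DW, nc e ≠ e
  three : ∀ e ∈ T.cut DB DW, nc (nc (nc e)) = e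
  all : ∀ e ∈ T.cut DB DW, ∀ e' ∈ T.cut DB DW, e' = e ∨ e' = nc e ∨ e' = nc (nc e)
  tail : ∀ e ∈ T.cut DB DW, T.tail (nc e) = T.tail (T.nb e)

variable {T}

lemma mem_cut_iff {DB : Finset T.B} {DW : Finset T.W}
    (hsub : ∀ e, T.wht e ∈ DW → T.blk e ∈ DB) {e : T.E} :
    e ∈ T.cut DB DW ↔ T.blk e ∈ DB ∧ T.wht e ∉ DW := by
  have := hsub e
  rw [mem_cut]
  tauto

lemma exists_sep {DB : Finset T.B} {DW : Finset T.W}
    (hsub : ∀ e, T.wht e ∈ DW → T.blk e ∈ DB) (hcard : (T.cut DB DW).card = 3)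
    (hout : ∃ b, b ∉ DB) : ∃ nc, T.Sep DB DW nc := by
  have hnext : ∀ e, ∃ e', e ∈ T.cut DB DW → e' ∈ T.cut DB DW ∧ T.tail e' = T.tail (T.nb e) := by
    intro e
    by_contra hcon
    push Not at hcon
    have he := (hcon e).1
    have hz := T.isCirc_bd (fun b => if b ∈ DB then 1 else 0) (fun w => if w ∈ DW then 1 else 0)
      (fun v => if v = T.tail (T.nb e) then 1 else 0)
    have hterm : ∀ e', T.bd (fun b => if b ∈ DB then 1 else 0) (fun w => if w ∈ DW then 1 else 0) e' *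
        T.df (fun v => if v = T.tail (T.nb e) then 1 else 0) e' =
        if e' ∈ T.cut DB DW ∧ T.tail (T.nb e') = T.tail (T.nb e) then 1 else 0 := by
      intro e'
      by_cases h1 : e' ∈ T.cut DB DW
      · have h2 := (mem_cut_iff hsub).1 h1
        have h3 := (hcon e').2 h1
        simp [bd, df, h1, h2.1, h2.2, h3]
      · have h2 : T.blk e' ∈ DB ↔ T.wht e' ∈ DW := by
          by_contra h; exact h1 (T.mem_cut.2 h)
        simp [bd, h1, h2]
    simp_rw [hterm] at hz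
    have := (Finset.sum_eq_zero_iff_of_nonneg (fun e' _ => by split_ifs <;> norm_num)).1 hz e
      (Finset.mem_univ e)
    simp [he] at this
  choose nc hnc using hnext
  have h2 : ∀ e ∈ T.cut DB DW, nc e ≠ e := fun e he h =>
    T.no_loop e (by rw [← (hnc e he).2, h])
  have h3 : ∀ e ∈ T.cut DB DW, nc (nc e) ≠ e := by
    intro e he h
    have a1 := (hnc e he).2
    have a2 := (hnc _ (hnc e he).1).2
    rw [h] at a2
    have hne := h2 e he
    have := T.circ_two e (nc e)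
      (fun e' => (if e' = e then 1 else 0) + (if e' = nc e then 1 else 0)) (fun f => by
        simp only [add_mul, Finset.sum_add_distrib, ite_mul, one_mul, zero_mul,
          Finset.sum_ite_eq', Finset.mem_univ, if_true, df, a1, ← a2]
        ring) (fun e' h1 h2 => by simp [h1, h2]) e
    simp [hne.symm] at this
  exact ⟨nc, hsub, hcard, hout, fun e he => (hnc e he).1, h2,
    fun e he => (three_cycle hcard (fun e he => (hnc e he).1) h2 h3 he).1,
    fun e he => (three_cycle hcard (fun e he => (hnc e he).1) h2 h3 he).2,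
    fun e he => (hnc e he).2⟩

section piece

variable {DB : Finset T.B} {DW : Finset T.W} {nc : T.E → T.E}

lemma Sep.cut_iff (h : T.Sep DB DW nc) {e : T.E} :
    e ∈ T.cut DB DW ↔ T.blk e ∈ DB ∧ T.wht e ∉ DW := mem_cut_iff h.sub

lemma Sep.exists_cut (h : T.Sep DB DW nc) : ∃ e, e ∈ T.cut DB DW :=
  Finset.card_pos.1 (by rw [h.card]; norm_num)

/-- the white face of an edge, in the piece -/
def whtP (DW : Finset T.W) (e : T.E) : Option {w // w ∈ DW} :=
  if h : T.wht e ∈ DW then some ⟨_, h⟩ else none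

/-- the next edge on the white face, in the piece -/
def nwP (DW : Finset T.W) (nc : T.E → T.E) (e : T.E) : T.E :=
  if T.wht e ∈ DW then T.nw e else nc e

lemma nwP_in {e : T.E} (he : T.wht e ∈ DW) : nwP DW nc e = T.nw e := if_pos he

lemma nwP_out {e : T.E} (he : T.wht e ∉ DW) : nwP DW nc e = nc e := if_neg he

lemma Sep.nwP_mem (h : T.Sep DB DW nc) {e : T.E} (he : T.blk e ∈ DB) :
    T.blk (nwP DW nc e) ∈ DB := by
  by_cases hw : T.wht e ∈ DW
  · rw [nwP_in hw]; exact h.sub _ (by simpa using hw)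
  · rw [nwP_out hw]; exact (h.cut_iff.1 (h.mem e (h.cut_iff.2 ⟨he, hw⟩))).1

lemma Sep.nwP2 (h : T.Sep DB DW nc) {e : T.E} (he : e ∈ T.cut DB DW) :
    nwP DW nc e = nc e ∧ nwP DW nc (nwP DW nc e) = nc (nc e) ∧
      nwP DW nc (nwP DW nc (nwP DW nc e)) = e := by
  have a1 := h.mem e he
  have a2 := h.mem _ a1
  rw [nwP_out (h.cut_iff.1 he).2, nwP_out (h.cut_iff.1 a1).2, nwP_out (h.cut_iff.1 a2).2]
  exact ⟨rfl, rfl, h.three e he⟩

lemma nwP2_in {e : T.E} (he : T.wht e ∈ DW) :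
    nwP DW nc e = T.nw e ∧ nwP DW nc (nwP DW nc e) = T.nw (T.nw e) ∧
      nwP DW nc (nwP DW nc (nwP DW nc e)) = e := by
  rw [nwP_in he, nwP_in (by simpa using he), nwP_in (by simpa using he)]
  exact ⟨rfl, rfl, T.nw3 e⟩

/-- extension of a function on the black faces of the piece -/
def extB (φ : {b // b ∈ DB} → ℝ) (ψ : Option {w // w ∈ DW} → ℝ) (b : T.B) : ℝ :=
  if h : b ∈ DB then φ ⟨b, h⟩ else ψ none

/-- extension of a function on the white faces of the piece -/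
def extW (ψ : Option {w // w ∈ DW} → ℝ) (w : T.W) : ℝ :=
  if h : w ∈ DW then ψ (some ⟨w, h⟩) else ψ none

lemma extW_wht (ψ : Option {w // w ∈ DW} → ℝ) (e : T.E) :
    extW ψ (T.wht e) = ψ (whtP DW e) := by
  unfold extW whtP
  split_ifs <;> rfl

lemma extB_mem (φ : {b // b ∈ DB} → ℝ) (ψ : Option {w // w ∈ DW} → ℝ) {b : T.B} (h : b ∈ DB) :
    extB φ ψ b = φ ⟨b, h⟩ := dif_pos h

lemma Sep.ext_out (h : T.Sep DB DW nc) (φ : {b // b ∈ DB} → ℝ)
    (ψ : Option {w // w ∈ DW} → ℝ) {e : T.E} (he : T.blk e ∉ DB) :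
    extB φ ψ (T.blk e) = extW ψ (T.wht e) := by
  have hw : T.wht e ∉ DW := fun h' => he (h.sub e h')
  simp [extB, extW, he, hw]

lemma Sep.euler (h : T.Sep DB DW nc) :
    DB.card + DW.card + (T.VD DB DW).card = (univ.filter fun e => T.blk e ∈ DB).card + 1 := by
  obtain ⟨c, hc⟩ := h.exists_cut
  have hED : T.ED DB DW = univ.filter fun e => T.blk e ∈ DB := by
    ext e
    have := h.sub e
    simp only [mem_ED, Finset.mem_filter, Finset.mem_univ, true_and]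
    tauto
  rw [← hED]
  refine T.disc DB DW (Or.inl ⟨_, (h.cut_iff.1 hc).1⟩) (Or.inl h.out) ?_
    ((T.cut DB DW).image T.tail) ?_ ?_
  · intro f hf e he e' he'
    have key : ∀ e ∈ T.cut DB DW, f (T.tail (nc e)) = f (T.tail e) := fun e he => by
      rw [h.tail e he]; exact sub_eq_zero.1 (hf e he)
    rcases h.all e he e' he' with rfl | rfl | rfl
    · rfl
    · exact (key e he).symm
    · rw [key _ (h.mem e he), key e he]
  · intro v hv
    obtain ⟨e, he, rfl⟩ := Finset.mem_image.1 hv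
    exact ⟨e, he, Or.inl rfl⟩
  · rw [Finset.card_image_of_injOn]
    intro e he e' he' hh
    have he1 : e ∈ T.cut DB DW := he
    have he2 : e' ∈ T.cut DB DW := he'
    rcases h.all e he1 e' he2 with h1 | h1 | h1
    · exact h1.symm
    · exact absurd (by rw [← h.tail e he1, ← h1, hh]) (T.no_loop e)
    · have h2 : nc e' = e := by rw [h1, h.three e he1]
      exact absurd (by rw [← h.tail e' he2, h2, hh]) (T.no_loop e')

/-- the inside of the triangle, closed up by one new white face -/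
def Sep.piece (h : T.Sep DB DW nc) : Tri.{u} where
  E := {e // T.blk e ∈ DB}
  V := {v // v ∈ T.VD DB DW}
  B := {b // b ∈ DB}
  W := Option {w // w ∈ DW}
  tail e := ⟨T.tail e, T.mem_VD_of_at (T.mem_ED.2 (Or.inl e.2)) (Or.inl rfl)⟩
  blk e := ⟨T.blk e, e.2⟩
  wht e := whtP DW e
  nb e := ⟨T.nb e, by simpa using e.2⟩
  nw e := ⟨nwP DW nc e, h.nwP_mem e.2⟩
  nb3 e := Subtype.ext (T.nb3 e)
  nw3 e := Subtype.ext (by
    by_cases hw : T.wht e ∈ DW
    · exact (nwP2_in hw).2.2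
    · exact (h.nwP2 (h.cut_iff.2 ⟨e.2, hw⟩)).2.2)
  nb_ne e hh := T.nb_ne e (congrArg Subtype.val hh)
  nw_ne e hh := by
    have h1 : nwP DW nc e = e := congrArg Subtype.val hh
    by_cases hw : T.wht e ∈ DW
    · exact T.nw_ne e (by rwa [nwP_in hw] at h1)
    · exact h.ne e (h.cut_iff.2 ⟨e.2, hw⟩) (by rwa [nwP_out hw] at h1)
  blk_eq e e' := by
    simp only [Subtype.ext_iff]
    exact T.blk_eq e e'
  wht_eq e e' := by
    simp only [Subtype.ext_iff]
    by_cases hw : T.wht e ∈ DW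
    · rw [(nwP2_in hw).2.1, (nwP2_in hw).1, ← T.wht_eq]
      by_cases hw' : T.wht e' ∈ DW
      · simp [whtP, hw, hw']
      · have : T.wht e' ≠ T.wht e := fun hh => hw' (hh ▸ hw)
        simp [whtP, hw, hw', this]
    · have hc := h.cut_iff.2 ⟨e.2, hw⟩
      rw [(h.nwP2 hc).2.1, (h.nwP2 hc).1]
      by_cases hw' : T.wht e' ∈ DW
      · have a1 : (e' : T.E) ∉ T.cut DB DW := fun hh => (h.cut_iff.1 hh).2 hw'
        have a2 : ¬ ((e' : T.E) = e ∨ (e' : T.E) = nc e ∨ (e' : T.E) = nc (nc e)) := by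
          rintro (hh | hh | hh) <;> apply a1 <;> rw [hh]
          · exact hc
          · exact h.mem _ hc
          · exact h.mem _ (h.mem _ hc)
        simp [whtP, hw, hw', a2]
      · have a2 := h.all e hc e' (h.cut_iff.2 ⟨e'.2, hw'⟩)
        simp [whtP, hw, hw', a2]
  tail_n e := Subtype.ext (by
    by_cases hw : T.wht e ∈ DW
    · show T.tail (nwP DW nc e) = T.tail (T.nb e)
      rw [nwP_in hw, T.tail_n]
    · show T.tail (nwP DW nc e) = T.tail (T.nb e)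
      rw [nwP_out hw, h.tail e (h.cut_iff.2 ⟨e.2, hw⟩)])
  tail_surj := by
    rintro ⟨v, hv⟩
    obtain ⟨e, he, rfl⟩ := Finset.mem_image.1 hv
    exact ⟨⟨e, (T.mem_ED.1 he).elim id (h.sub e)⟩, rfl⟩
  blk_surj := by
    rintro ⟨b, hb⟩
    obtain ⟨e, rfl⟩ := T.blk_surj b
    exact ⟨⟨e, hb⟩, rfl⟩
  wht_surj := by
    rintro (_ | ⟨w, hw⟩)
    · obtain ⟨c, hc⟩ := h.exists_cut
      exact ⟨⟨c, (h.cut_iff.1 hc).1⟩, dif_neg (h.cut_iff.1 hc).2⟩
    · obtain ⟨e, rfl⟩ := T.wht_surj w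
      exact ⟨⟨e, h.sub e hw⟩, dif_pos hw⟩
  link v φ ψ hh e e' he he' := by
    have := T.link v (extB φ ψ) (extW ψ) (fun x hx => by
      by_cases hb : T.blk x ∈ DB
      · rw [extB_mem φ ψ hb, extW_wht]
        exact hh ⟨x, hb⟩ (hx.imp Subtype.ext Subtype.ext)
      · exact h.ext_out φ ψ hb) e e' (congrArg Subtype.val he) (congrArg Subtype.val he')
    rwa [extB_mem φ ψ e.2, extB_mem φ ψ e'.2] at this
  c3 e1 e2 φ ψ hh b w := by
    have := T.c3 e1 e2 (extB φ ψ) (extW ψ) (fun x h1 h2 => by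
      by_cases hb : T.blk x ∈ DB
      · rw [extB_mem φ ψ hb, extW_wht]
        exact hh ⟨x, hb⟩ (fun h3 => h1 (congrArg Subtype.val h3))
          (fun h3 => h2 (congrArg Subtype.val h3))
      · exact h.ext_out φ ψ hb) b
    rw [extB_mem φ ψ b.2] at this
    rcases w with _ | ⟨w, hw⟩
    · obtain ⟨c, hc⟩ := h.exists_cut
      have a := this (T.wht c)
      rwa [extW, dif_neg (h.cut_iff.1 hc).2] at a
    · have a := this w
      rwa [extW, dif_pos hw] at a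
  euler := by
    have := h.euler
    rw [Fintype.card_option, Fintype.card_coe, Fintype.card_coe, Fintype.card_coe,
      Fintype.card_subtype]
    omega

lemma Sep.card_lt (h : T.Sep DB DW nc) : Fintype.card h.piece.E < Fintype.card T.E := by
  obtain ⟨b, hb⟩ := h.out
  obtain ⟨e, rfl⟩ := T.blk_surj b
  exact Fintype.card_subtype_lt (p := fun e => T.blk e ∈ DB) (x := e) hb

end piece

variable (T)

/-- one half of a good matching -/
structure Half (DB : Finset T.B) (DW : Finset T.W) (M : Finset T.E) (c : T.E) : Prop where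
  c_cut : c ∈ T.cut DB DW
  c_mem : c ∈ M
  uniq : ∀ e ∈ M, T.wht e ∉ DW → e = c
  sub : ∀ e ∈ M, T.blk e ∈ DB
  blk1 : ∀ b ∈ DB, ∃! e, e ∈ M ∧ T.blk e = b
  wht1 : ∀ w ∈ DW, ∃! e, e ∈ M ∧ T.wht e = w
  conn : ∀ (φ : T.B → ℝ) (ψ : T.W → ℝ),
    (∀ e, T.wht e ∈ DW → e ∉ M → φ (T.blk e) = ψ (T.wht e)) → ∀ e' ∈ T.cut DB DW, e' ≠ c →
      (∀ b ∈ DB, φ b = φ (T.blk e')) ∧ ∀ w ∈ DW, ψ w = φ (T.blk e')

variable {T}

lemma Sep.half {DB : Finset T.B} {DW : Finset T.W} {nc : T.E → T.E} (h : T.Sep DB DW nc)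
    {M : Finset h.piece.E} (hM : h.piece.Good M) :
    ∃ c, T.Half DB DW (M.map (Function.Embedding.subtype _)) c := by
  obtain ⟨c, ⟨hc1, hc2⟩, hc3⟩ := hM.wht1 none
  have hmem : ∀ e, e ∈ M.map (Function.Embedding.subtype fun e => T.blk e ∈ DB) ↔
      ∃ he : T.blk e ∈ DB, (⟨e, he⟩ : {e // T.blk e ∈ DB}) ∈ M := by
    intro e
    refine Finset.mem_map.trans ⟨?_, ?_⟩
    · rintro ⟨a, ha, rfl⟩
      exact ⟨a.2, ha⟩
    · rintro ⟨he, ha⟩
      exact ⟨_, ha, rfl⟩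
  have hcw : T.wht c.1 ∉ DW := by
    intro hh
    have : whtP DW c.1 = none := hc2
    rw [whtP, dif_pos hh] at this
    exact absurd this (by simp)
  have hcc : c.1 ∈ T.cut DB DW := h.cut_iff.2 ⟨c.2, hcw⟩
  refine ⟨c.1, hcc, (hmem _).2 ⟨c.2, hc1⟩, ?_, ?_, ?_, ?_, ?_⟩
  · intro e he hw
    obtain ⟨hb, he'⟩ := (hmem e).1 he
    exact congrArg Subtype.val (hc3 ⟨e, hb⟩ ⟨he', dif_neg hw⟩)
  · intro e he
    exact ((hmem e).1 he).1
  · intro b hb
    obtain ⟨e, ⟨h1, h2⟩, h3⟩ := hM.blk1 ⟨b, hb⟩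
    refine ⟨e.1, ⟨(hmem _).2 ⟨e.2, h1⟩, congrArg Subtype.val h2⟩, ?_⟩
    rintro e' ⟨a1, a2⟩
    obtain ⟨hb', he'⟩ := (hmem e').1 a1
    exact congrArg Subtype.val (h3 ⟨e', hb'⟩ ⟨he', Subtype.ext a2⟩)
  · intro w hw
    obtain ⟨e, ⟨h1, h2⟩, h3⟩ := hM.wht1 (some ⟨w, hw⟩)
    have h2' : whtP DW e.1 = some ⟨w, hw⟩ := h2
    refine ⟨e.1, ⟨(hmem _).2 ⟨e.2, h1⟩, ?_⟩, ?_⟩
    · unfold whtP at h2'
      split_ifs at h2'
      simpa using h2'
    · rintro e' ⟨a1, a2⟩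
      obtain ⟨hb', he'⟩ := (hmem e').1 a1
      subst a2
      exact congrArg Subtype.val (h3 ⟨e', hb'⟩ ⟨he', dif_pos hw⟩)
  · intro φ ψ hh e' he' hne
    obtain ⟨e2, he2, hall⟩ : ∃ e2 ∈ T.cut DB DW, ∀ e ∈ T.cut DB DW,
        e = c.1 ∨ e = e' ∨ e = e2 := by
      rcases h.all _ hcc e' he' with h1 | h1 | h1
      · exact absurd h1 hne
      · exact ⟨nc (nc c.1), h.mem _ (h.mem _ hcc), fun e he => by
          rw [h1]; exact h.all _ hcc e he⟩
      · exact ⟨nc c.1, h.mem _ hcc, fun e he => by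
          rw [h1]; have := h.all _ hcc e he; tauto⟩
    have key := hM.conn1 ⟨e2, (h.cut_iff.1 he2).1⟩ (fun b => φ b.1)
      (fun w => Option.elim w (φ (T.blk e')) (fun w => ψ w.1)) (fun e heM hne2 => by
        show φ (T.blk e.1) = Option.elim (whtP DW e.1) (φ (T.blk e')) (fun w => ψ w.1)
        by_cases hw : T.wht e.1 ∈ DW
        · rw [whtP, dif_pos hw]
          exact hh e.1 hw (fun a => heM ((hmem _).1 a).2)
        · rw [whtP, dif_neg hw]
          rcases hall e.1 (h.cut_iff.2 ⟨e.2, hw⟩) with a | a | a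
          · exact absurd ((Subtype.ext a : e = c) ▸ hc1) heM
          · rw [a]; rfl
          · exact absurd (Subtype.ext a) hne2)
    refine ⟨fun b hb => key ⟨b, hb⟩ none, fun w hw => ?_⟩
    exact (key ⟨_, (h.cut_iff.1 he').1⟩ (some ⟨w, hw⟩)).symm

lemma cut_swap (DB : Finset T.B) (DW : Finset T.W) :
    T.swap.cut (DWᶜ : Finset T.W) (DBᶜ : Finset T.B) = T.cut DB DW := by
  refine Finset.ext fun (e : T.E) => ?_
  have a : e ∈ T.swap.cut (DWᶜ : Finset T.W) (DBᶜ : Finset T.B) ↔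
      ¬ (T.wht e ∈ DWᶜ ↔ T.blk e ∈ DBᶜ) := T.swap.mem_cut
  refine a.trans (Iff.trans ?_ T.mem_cut.symm)
  rw [Finset.mem_compl, Finset.mem_compl]
  tauto

lemma glue {DB : Finset T.B} {DW : Finset T.W} {nc : T.E → T.E} (h : T.Sep DB DW nc)
    {M1 M2 : Finset T.E} {c : T.E} (h1 : T.Half DB DW M1 c)
    (h2 : T.swap.Half (DWᶜ : Finset T.W) (DBᶜ : Finset T.B) M2 c) : T.Good (M1 ∪ M2) := by
  have u2 : ∀ e ∈ M2, T.blk e ∈ DB → e = c := fun e he hb =>
    h2.uniq e he (fun hh => (Finset.mem_compl.1 hh) hb)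
  have s2 : ∀ e ∈ M2, T.wht e ∉ DW := fun e he => Finset.mem_compl.1 (h2.sub e he)
  have c2 : c ∈ M2 := h2.c_mem
  refine ⟨fun b => ?_, fun w => ?_, fun φ ψ hh b w => ?_⟩
  · by_cases hb : b ∈ DB
    · obtain ⟨e, ⟨a1, a2⟩, a3⟩ := h1.blk1 b hb
      refine ⟨e, ⟨Finset.mem_union_left _ a1, a2⟩, ?_⟩
      rintro e' ⟨b1, b2⟩
      rcases Finset.mem_union.1 b1 with b3 | b3
      · exact a3 e' ⟨b3, b2⟩
      · exact a3 e' ⟨(u2 e' b3 (b2 ▸ hb)).symm ▸ h1.c_mem, b2⟩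
    · obtain ⟨e, ⟨a1, a2⟩, a3⟩ := h2.wht1 b (Finset.mem_compl.2 hb)
      refine ⟨e, ⟨Finset.mem_union_right _ a1, a2⟩, ?_⟩
      rintro e' ⟨b1, b2⟩
      rcases Finset.mem_union.1 b1 with b3 | b3
      · exact absurd (b2 ▸ h1.sub e' b3) hb
      · exact a3 e' ⟨b3, b2⟩
  · by_cases hw : w ∈ DW
    · obtain ⟨e, ⟨a1, a2⟩, a3⟩ := h1.wht1 w hw
      refine ⟨e, ⟨Finset.mem_union_left _ a1, a2⟩, ?_⟩
      rintro e' ⟨b1, b2⟩
      rcases Finset.mem_union.1 b1 with b3 | b3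
      · exact a3 e' ⟨b3, b2⟩
      · exact absurd (b2 ▸ hw) (s2 e' b3)
    · obtain ⟨e, ⟨a1, a2⟩, a3⟩ := h2.blk1 w (Finset.mem_compl.2 hw)
      refine ⟨e, ⟨Finset.mem_union_right _ a1, a2⟩, ?_⟩
      rintro e' ⟨b1, b2⟩
      rcases Finset.mem_union.1 b1 with b3 | b3
      · exact a3 e' ⟨(h1.uniq e' b3 (b2 ▸ hw)).symm ▸ c2, b2⟩
      · exact a3 e' ⟨b3, b2⟩
  · have hc' := h.mem c h1.c_cut
    have hne := h.ne c h1.c_cut
    obtain ⟨hb', hw'⟩ := h.cut_iff.1 hc'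
    have k1 := h1.conn φ ψ (fun e hw he => hh e fun a => by
      rcases Finset.mem_union.1 a with a | a
      · exact he a
      · exact s2 e a hw) _ hc' hne
    have k2 : (∀ w ∈ (DWᶜ : Finset T.W), ψ w = ψ (T.wht (nc c))) ∧
        ∀ b ∈ (DBᶜ : Finset T.B), φ b = ψ (T.wht (nc c)) :=
      h2.conn ψ φ (fun e hb he => (hh e fun a => by
        rcases Finset.mem_union.1 a with a | a
        · exact Finset.mem_compl.1 hb (h1.sub e a)
        · exact he a).symm) _ (by rw [cut_swap]; exact hc') hne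
    have k3 : φ (T.blk (nc c)) = ψ (T.wht (nc c)) := hh _ fun a => by
      rcases Finset.mem_union.1 a with a | a
      · exact hne (h1.uniq _ a hw')
      · exact hne (u2 _ a hb')
    have k4 : φ b = φ (T.blk (nc c)) := by
      by_cases hb : b ∈ DB
      · exact k1.1 b hb
      · rw [k3]; exact k2.2 b (Finset.mem_compl.2 hb)
    have k5 : ψ w = φ (T.blk (nc c)) := by
      by_cases hw : w ∈ DW
      · exact k1.2 w hw
      · rw [k3]; exact k2.1 w (Finset.mem_compl.2 hw)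
    rw [k4, k5]

lemma Sep.half_of {DB : Finset T.B} {DW : Finset T.W} {nc : T.E → T.E} (h : T.Sep DB DW nc)
    (ih : ∀ e0 : h.piece.E, ∃ M, e0 ∈ M ∧ h.piece.Good M) (e0 : T.E) (he : T.blk e0 ∈ DB) :
    ∃ M c, e0 ∈ M ∧ T.Half DB DW M c := by
  obtain ⟨M, h1, h2⟩ := ih ⟨e0, he⟩
  obtain ⟨c, hc⟩ := h.half h2
  exact ⟨_, c, Finset.mem_map.2 ⟨_, h1, rfl⟩, hc⟩

lemma Sep.half_cut {DB : Finset T.B} {DW : Finset T.W} {nc : T.E → T.E} (h : T.Sep DB DW nc)
    (ih : ∀ e0 : h.piece.E, ∃ M, e0 ∈ M ∧ h.piece.Good M) (c : T.E) (hc : c ∈ T.cut DB DW) :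
    ∃ M, T.Half DB DW M c := by
  obtain ⟨M, c', h1, h2⟩ := h.half_of ih c (h.cut_iff.1 hc).1
  exact ⟨M, h2.uniq c h1 (h.cut_iff.1 hc).2 ▸ h2⟩

theorem exists_good_aux (n : ℕ) : ∀ T : Tri.{u}, Fintype.card T.E < n →
    ∀ e0 : T.E, ∃ M, e0 ∈ M ∧ T.Good M := by
  induction n with
  | zero => intro T h; omega
  | succ n ih =>
  intro T hn e0
  by_cases hI : T.Irred
  · exact irred_good hI e0
  unfold Irred at hI
  push Not at hI
  obtain ⟨DB, DW, hsub, hcard, hB, hW⟩ := hI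
  obtain ⟨nc, h1⟩ := exists_sep hsub hcard (by
    by_contra hc
    push Not at hc
    exact hB (Finset.eq_univ_of_forall hc))
  obtain ⟨nc', h2⟩ := exists_sep (T := T.swap) (DB := (DWᶜ : Finset T.W))
    (DW := (DBᶜ : Finset T.B))
    (fun e he => Finset.mem_compl.2 fun hw => Finset.mem_compl.1 he (hsub e hw))
    (by rw [cut_swap]; exact hcard) (by
      obtain ⟨w, hw⟩ := hW
      exact ⟨w, fun hh => Finset.mem_compl.1 hh hw⟩)
  have i1 := ih h1.piece (by have := h1.card_lt; omega)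
  have i2 := ih h2.piece (by
    have : Fintype.card h2.piece.E < Fintype.card T.E := h2.card_lt
    omega)
  by_cases hb : T.blk e0 ∈ DB
  · obtain ⟨M1, c, a1, a2⟩ := h1.half_of i1 e0 hb
    obtain ⟨M2, a3⟩ := h2.half_cut i2 c (by rw [cut_swap]; exact a2.c_cut)
    exact ⟨M1 ∪ M2, Finset.mem_union_left _ a1, glue h1 a2 a3⟩
  · obtain ⟨M2, c, a1, a2⟩ := h2.half_of i2 e0
      (Finset.mem_compl.2 fun hw => hb (hsub e0 hw))
    obtain ⟨M1, a3⟩ := h1.half_cut i1 c (by rw [← cut_swap]; exact a2.c_cut)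
    exact ⟨M1 ∪ M2, Finset.mem_union_right _ a1, glue h1 a3 a2⟩

theorem exists_good (T : Tri.{u}) (e0 : T.E) : ∃ M, e0 ∈ M ∧ T.Good M :=
  exists_good_aux _ T (Nat.lt_succ_self _) e0

end Tri

end Vale.Agent.P039
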