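import Vale.Agent.P039.Cycle

/-!
Existence of a pair of disjoint states when there is no separating triangle.
-/

namespace Vale.Agent.P039

open Finset

universe u

namespace Tri

variable (T : Tri.{u})

/-- no separating triangle with black faces along its inner side -/
def Irred : Prop := ∀ (DB : Finset T.B) (DW : Finset T.W),
  (∀ e, T.wht e ∈ DW → T.blk e ∈ DB) → (T.cut DB DW).card = 3 → DB = univ ∨ DW = ∅

/-- black faces with all corners in `S` -/
def B3 (S : Finset T.V) : Finset T.B := univ.filter fun b => ∀ e, T.blk e = b → T.tail e ∈ S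

/-- white faces with all corners in `S` -/
def W3 (S : Finset T.V) : Finset T.W := T.swap.B3 S

lemma blk_mem_B3 (S : Finset T.V) (e : T.E) : T.blk e ∈ T.B3 S ↔
    T.tail e ∈ S ∧ T.tail (T.nb e) ∈ S ∧ T.tail (T.nb (T.nb e)) ∈ S := by
  simp only [B3, Finset.mem_filter, Finset.mem_univ, true_and, T.blk_eq]
  constructor
  · intro h
    exact ⟨h _ (Or.inl rfl), h _ (Or.inr (Or.inl rfl)), h _ (Or.inr (Or.inr rfl))⟩
  · rintro ⟨h1, h2, h3⟩ e' (rfl | rfl | rfl) <;> assumption

lemma count_identity (S : Finset T.V) :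
    (univ.filter fun e => T.tail e ∉ S ∧ T.tail (T.nb e) ∉ S ∧
        T.tail (T.nb (T.nb e)) ∈ S).card +
      2 * (univ.filter fun e => T.tail e ∈ S ∧ T.tail (T.nb e) ∈ S).card =
      (univ.filter fun e => T.tail e ∈ S).card + 3 * (T.B3 S).card := by
  rw [← T.card_filter_blk, two_mul]
  simp only [Finset.card_filter]
  have a1 : (∑ e, if T.tail e ∈ S then 1 else 0) =
      ∑ e, if T.tail (T.nb (T.nb e)) ∈ S then 1 else 0 := by
    rw [T.sum_nb (fun e => if T.tail (T.nb e) ∈ S then 1 else 0),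
      T.sum_nb (fun e => if T.tail e ∈ S then 1 else 0)]
  have a2 : (∑ e, if T.tail e ∈ S ∧ T.tail (T.nb e) ∈ S then 1 else 0) =
      ∑ e, if T.tail (T.nb e) ∈ S ∧ T.tail (T.nb (T.nb e)) ∈ S then 1 else 0 :=
    (T.sum_nb (fun e => if T.tail e ∈ S ∧ T.tail (T.nb e) ∈ S then 1 else 0)).symm
  have a3 : (∑ e, if T.tail (T.nb e) ∈ S ∧ T.tail (T.nb (T.nb e)) ∈ S then 1 else 0) =
      ∑ e, if T.tail (T.nb (T.nb e)) ∈ S ∧ T.tail e ∈ S then 1 else 0 := by
    rw [← T.sum_nb (fun e => if T.tail (T.nb e) ∈ S ∧ T.tail (T.nb (T.nb e)) ∈ S then 1 else 0)]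
    simp only [T.nb3]
  rw [a1, a2]
  nth_rewrite 2 [a3]
  simp only [← Finset.sum_add_distrib, T.blk_mem_B3]
  refine Finset.sum_congr rfl fun e _ => ?_
  by_cases h1 : T.tail e ∈ S <;> by_cases h2 : T.tail (T.nb e) ∈ S <;>
    by_cases h3 : T.tail (T.nb (T.nb e)) ∈ S <;> simp [h1, h2, h3]

lemma cut_ge_three {DB : Finset T.B} {DW : Finset T.W}
    (hin : (∃ b, b ∈ DB) ∨ (∃ w, w ∈ DW)) (hout : (∃ b, b ∉ DB) ∨ (∃ w, w ∉ DW)) :
    3 ≤ (T.cut DB DW).card := by
  by_contra hlt
  obtain ⟨e1, he1⟩ := T.cut_nonempty hin hout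
  obtain ⟨e2, he2⟩ : ∃ e2, ∀ e ∈ T.cut DB DW, e = e1 ∨ e = e2 := by
    have hc : ((T.cut DB DW).erase e1).card ≤ 1 := by
      rw [Finset.card_erase_of_mem he1]; omega
    have : Nonempty T.E := ⟨e1⟩
    obtain ⟨x, hx⟩ := Finset.card_le_one_iff_subset_singleton.1 hc
    refine ⟨x, fun e he => ?_⟩
    by_cases h : e = e1
    · exact Or.inl h
    · exact Or.inr (Finset.mem_singleton.1 (hx (Finset.mem_erase.2 ⟨h, he⟩)))
  have h := T.c3 e1 e2 (fun b => if b ∈ DB then 1 else 0) (fun w => if w ∈ DW then 1 else 0)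
    (fun e h1 h2 => by
      have : T.blk e ∈ DB ↔ T.wht e ∈ DW := by
        by_contra hc
        rcases he2 e (T.mem_cut.2 hc) with h | h
        · exact h1 h
        · exact h2 h
      simp only [this]) (T.blk e1) (T.wht e1)
  rw [T.mem_cut] at he1
  by_cases hb : T.blk e1 ∈ DB <;> by_cases hw : T.wht e1 ∈ DW <;> simp_all

lemma card_cut (DB : Finset T.B) (DW : Finset T.W) : (T.cut DB DW).card =
    (univ.filter fun e => T.blk e ∈ DB ∧ T.wht e ∉ DW).card +
      (univ.filter fun e => T.blk e ∉ DB ∧ T.wht e ∈ DW).card := by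
  rw [← Finset.card_union_of_disjoint]
  · congr 1
    ext e
    simp only [mem_cut, Finset.mem_union, Finset.mem_filter, Finset.mem_univ, true_and]
    tauto
  · rw [Finset.disjoint_filter]
    tauto

lemma card_balance (DB : Finset T.B) (DW : Finset T.W) :
    3 * DB.card + (univ.filter fun e => T.blk e ∉ DB ∧ T.wht e ∈ DW).card =
      3 * DW.card + (univ.filter fun e => T.blk e ∈ DB ∧ T.wht e ∉ DW).card := by
  have h1 := T.card_ED DB DW
  have h2 : (univ.filter fun e => T.wht e ∈ DW ∨ T.blk e ∈ DB).card =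
      3 * DW.card + (univ.filter fun e => T.wht e ∉ DW ∧ T.blk e ∈ DB).card :=
    T.swap.card_ED DW DB
  simp only [or_comm (a := T.wht _ ∈ DW), and_comm (a := T.wht _ ∉ DW)] at h2
  rw [← h1, ← h2, ED]

variable {T} {b0 : T.B}

lemma boundary_six (hI : T.Irred) (S : Finset T.V) (hS : ∀ v ∈ S, T.NonRoot b0 v)
    (hne : S.Nonempty) :
    6 ≤ (univ.filter fun e => T.tail e ∉ S ∧ T.tail (T.nb e) ∉ S ∧
        T.tail (T.nb (T.nb e)) ∈ S).card +
      2 * (univ.filter fun e => T.tail e ∉ S ∧ T.tail (T.nw e) ∉ S ∧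
        T.tail (T.nw (T.nw e)) ∈ S).card := by
  set DB : Finset T.B := univ.filter fun b => ∃ e, T.blk e = b ∧ T.tail e ∈ S with hDB
  set DW : Finset T.W := univ.filter fun w => ∃ e, T.wht e = w ∧ T.tail e ∈ S with hDW
  have mB : ∀ e, T.blk e ∈ DB ↔
      T.tail e ∈ S ∨ T.tail (T.nb e) ∈ S ∨ T.tail (T.nb (T.nb e)) ∈ S := by
    intro e
    simp only [hDB, Finset.mem_filter, Finset.mem_univ, true_and, T.blk_eq]
    constructor
    · rintro ⟨e', rfl | rfl | rfl, h⟩ <;> tauto
    · rintro (h | h | h)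
      · exact ⟨_, Or.inl rfl, h⟩
      · exact ⟨_, Or.inr (Or.inl rfl), h⟩
      · exact ⟨_, Or.inr (Or.inr rfl), h⟩
  have mW : ∀ e, T.wht e ∈ DW ↔
      T.tail e ∈ S ∨ T.tail (T.nw e) ∈ S ∨ T.tail (T.nw (T.nw e)) ∈ S := by
    intro e
    simp only [hDW, Finset.mem_filter, Finset.mem_univ, true_and, T.wht_eq]
    constructor
    · rintro ⟨e', rfl | rfl | rfl, h⟩ <;> tauto
    · rintro (h | h | h)
      · exact ⟨_, Or.inl rfl, h⟩
      · exact ⟨_, Or.inr (Or.inl rfl), h⟩
      · exact ⟨_, Or.inr (Or.inr rfl), h⟩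
  have hb0 : b0 ∉ DB := by
    simp only [hDB, Finset.mem_filter, Finset.mem_univ, true_and]
    rintro ⟨e, h1, h2⟩
    exact hS _ h2 e h1 rfl
  obtain ⟨v, hv⟩ := hne
  obtain ⟨ev, rfl⟩ := T.tail_surj v
  have hw : T.wht ev ∈ DW := (mW ev).2 (Or.inl hv)
  have h3 := T.cut_ge_three (DB := DB) (DW := DW) (Or.inr ⟨_, hw⟩) (Or.inl ⟨_, hb0⟩)
  have h4 := T.card_cut DB DW
  have h5 := T.card_balance DB DW
  have h6 : (univ.filter fun e => T.blk e ∈ DB ∧ T.wht e ∉ DW).card ≤
      (univ.filter fun e => T.tail e ∉ S ∧ T.tail (T.nb e) ∉ S ∧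
        T.tail (T.nb (T.nb e)) ∈ S).card := by
    refine Finset.card_le_card fun e => ?_
    simp only [Finset.mem_filter, Finset.mem_univ, true_and, mB, mW, T.tail_n e]
    tauto
  have h7 : (univ.filter fun e => T.blk e ∉ DB ∧ T.wht e ∈ DW).card ≤
      (univ.filter fun e => T.tail e ∉ S ∧ T.tail (T.nw e) ∉ S ∧
        T.tail (T.nw (T.nw e)) ∈ S).card := by
    refine Finset.card_le_card fun e => ?_
    simp only [Finset.mem_filter, Finset.mem_univ, true_and, mB, mW, T.tail_n e]
    tauto
  have h8 : ¬ ((univ.filter fun e => T.blk e ∉ DB ∧ T.wht e ∈ DW).card = 0 ∧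
      (T.cut DB DW).card = 3) := by
    rintro ⟨h0, hc⟩
    rw [Finset.card_eq_zero, Finset.filter_eq_empty_iff] at h0
    rcases hI DB DW (fun e he => by
      by_contra hc'
      exact h0 (Finset.mem_univ e) ⟨hc', he⟩) hc with h | h
    · exact hb0 (h ▸ Finset.mem_univ _)
    · rw [h] at hw
      simp at hw
  omega

theorem key_ineq (hI : T.Irred) (S : Finset T.V) (hS : ∀ v ∈ S, T.NonRoot b0 v) :
    (T.B3 S).card + 2 * S.card ≤ (univ.filter fun e => T.tail e ∈ S).card := by
  classical
  induction S using Finset.strongInduction with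
  | H S ih =>
  rcases S.eq_empty_or_nonempty with rfl | hne
  · have : T.B3 ∅ = ∅ := by
      refine Finset.eq_empty_of_forall_notMem fun b hb => ?_
      obtain ⟨e, rfl⟩ := T.blk_surj b
      simpa using ((T.blk_mem_B3 _ e).1 hb).1
    simp [this]
  by_cases hconn : ∀ f : T.V → ℝ,
      (∀ e ∈ univ.filter (fun e => T.tail e ∈ S ∧ T.tail (T.nb e) ∈ S), T.df f e = 0) →
        ∀ u ∈ S, ∀ u' ∈ S, f u = f u'
  · have h1 := T.dim_ineq (T.B3 S) (T.W3 S) S _ (Or.inl ⟨b0, fun h => by
      obtain ⟨e, rfl⟩ := T.blk_surj b0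
      exact hS _ ((T.blk_mem_B3 S e).1 h).1 e rfl rfl⟩) (fun e he => by
      simp only [Finset.mem_filter, Finset.mem_univ, true_and]
      rcases he with he | he
      · exact ⟨((T.blk_mem_B3 S e).1 he).1, ((T.blk_mem_B3 S e).1 he).2.1⟩
      · have := (T.swap.blk_mem_B3 S e).1 he
        exact ⟨this.1, by rw [← T.tail_n]; exact this.2.1⟩) hconn
    have h2 := T.count_identity S
    have h3 : (univ.filter fun e => T.tail e ∉ S ∧ T.tail (T.nw e) ∉ S ∧
        T.tail (T.nw (T.nw e)) ∈ S).card +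
      2 * (univ.filter fun e => T.tail e ∈ S ∧ T.tail (T.nw e) ∈ S).card =
      (univ.filter fun e => T.tail e ∈ S).card + 3 * (T.W3 S).card :=
      T.swap.count_identity S
    have h4 := boundary_six hI S hS hne
    have h5 : (univ.filter fun e => T.tail e ∈ S ∧ T.tail (T.nw e) ∈ S) =
        univ.filter fun e => T.tail e ∈ S ∧ T.tail (T.nb e) ∈ S := by
      simp only [T.tail_n]
    rw [h5] at h3
    omega
  · push Not at hconn
    obtain ⟨f, hf, u, hu, u', hu', hne'⟩ := hconn
    set S1 := S.filter fun v => f v = f u with hS1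
    set S2 := S.filter fun v => ¬ f v = f u with hS2
    have i1 := ih S1 (Finset.filter_ssubset.2 ⟨u', hu', fun h => hne' h.symm⟩)
      (fun v hv => hS v (Finset.mem_filter.1 hv).1)
    have i2 := ih S2 (Finset.filter_ssubset.2 ⟨u, hu, by simp⟩)
      (fun v hv => hS v (Finset.mem_filter.1 hv).1)
    have c1 : S1.card + S2.card = S.card := Finset.card_filter_add_card_filter_not _
    have c2 : (univ.filter fun e => T.tail e ∈ S1).card +
        (univ.filter fun e => T.tail e ∈ S2).card = (univ.filter fun e => T.tail e ∈ S).card := by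
      rw [← Finset.card_union_of_disjoint]
      · congr 1
        ext e
        simp only [hS1, hS2, Finset.mem_union, Finset.mem_filter, Finset.mem_univ, true_and]
        tauto
      · rw [Finset.disjoint_filter]
        simp only [hS1, hS2, Finset.mem_filter]
        tauto
    have c3 : (T.B3 S).card ≤ (T.B3 S1).card + (T.B3 S2).card := by
      refine le_trans (Finset.card_le_card fun b hb => ?_) (Finset.card_union_le _ _)
      obtain ⟨e, rfl⟩ := T.blk_surj b
      obtain ⟨a1, a2, a3⟩ := (T.blk_mem_B3 S e).1 hb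
      have d1 : f (T.tail (T.nb e)) = f (T.tail e) :=
        sub_eq_zero.1 (hf e (by simp [a1, a2]))
      have d2 : f (T.tail (T.nb (T.nb e))) = f (T.tail (T.nb e)) :=
        sub_eq_zero.1 (hf (T.nb e) (by simp [a2, a3]))
      simp only [Finset.mem_union, T.blk_mem_B3, hS1, hS2, Finset.mem_filter, a1, a2, a3,
        true_and, d1, d2]
      tauto
    omega

lemma exists_omit (hI : T.Irred) : ∃ p : T.Inner b0 → T.E, (∀ t, T.blk (p t) = t.1) ∧
    ∀ v, (univ.filter fun e => T.blk e ≠ b0 ∧ T.tail e = v ∧ ∀ t, e ≠ p t).card ≤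
      if T.NonRoot b0 v then 2 else 0 := by
  classical
  have hP : ∀ v, ∃ P : Finset T.E, T.NonRoot b0 v → (∀ e ∈ P, T.tail e = v) ∧ P.card = 2 := by
    intro v
    by_cases hv : T.NonRoot b0 v
    · have := key_ineq hI {v} (by simpa using hv)
      obtain ⟨P, hP1, hP2⟩ := Finset.exists_subset_card_eq
        (s := univ.filter fun e => T.tail e ∈ ({v} : Finset T.V)) (n := 2)
        (by simp only [Finset.card_singleton] at this; omega)
      exact ⟨P, fun _ => ⟨fun e he => by simpa using hP1 he, hP2⟩⟩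
    · exact ⟨∅, fun h => absurd h hv⟩
  choose P hP using hP
  set Sl : Finset T.E := univ.filter fun e =>
    T.blk e ≠ b0 ∧ (T.NonRoot b0 (T.tail e) → e ∉ P (T.tail e)) with hSl
  have hbU : ∀ S : Finset T.V, (∀ v ∈ S, T.NonRoot b0 v) → (S.biUnion P).card = 2 * S.card := by
    intro S hS
    rw [Finset.card_biUnion, Finset.sum_congr rfl (fun v hv => (hP v (hS v hv)).2)]
    · simp [mul_comm]
    · intro v hv v' hv' hne
      rw [Function.onFun, Finset.disjoint_left]
      intro e h1 h2
      exact hne (((hP v (hS v hv)).1 e h1).symm.trans ((hP v' (hS v' hv')).1 e h2))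
  obtain ⟨f, hfinj, hf⟩ := (Finset.all_card_le_biUnion_card_iff_exists_injective
    (fun t : T.Inner b0 => Sl.filter fun x => ∃ e, T.blk e = t.1 ∧ T.tail e = T.tail x)).1 (by
      intro Y
      set U : Finset T.V := univ.filter fun v => ∃ t ∈ Y, ∃ e, T.blk e = t.1 ∧ T.tail e = v
        with hU
      set S := U.filter (T.NonRoot b0) with hS
      have hSn : ∀ v ∈ S, T.NonRoot b0 v := fun v hv => (Finset.mem_filter.1 hv).2
      have k1 := key_ineq hI S hSn
      set SlS := Sl.filter fun x => T.tail x ∈ S with hSlS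
      set SlR := Sl.filter fun x => T.tail x ∈ U ∧ ¬ T.NonRoot b0 (T.tail x) with hSlR
      have k2 : (univ.filter fun e => T.tail e ∈ S).card ≤ SlS.card + 2 * S.card := by
        rw [← hbU S hSn]
        refine le_trans (Finset.card_le_card fun e he => ?_) (Finset.card_union_le _ _)
        have he' : T.tail e ∈ S := (Finset.mem_filter.1 he).2
        rw [Finset.mem_union]
        by_cases h : e ∈ P (T.tail e)
        · exact Or.inr (Finset.mem_biUnion.2 ⟨_, he', h⟩)
        · refine Or.inl (Finset.mem_filter.2 ⟨Finset.mem_filter.2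
            ⟨Finset.mem_univ _, fun hb => hSn _ he' e hb rfl, fun _ => h⟩, he'⟩)
      have k3 : SlS.card + SlR.card ≤ (Y.biUnion fun t : T.Inner b0 =>
          Sl.filter fun x => ∃ e, T.blk e = t.1 ∧ T.tail e = T.tail x).card := by
        rw [← Finset.card_union_of_disjoint]
        · refine Finset.card_le_card fun x hx => ?_
          have hx' : x ∈ Sl ∧ T.tail x ∈ U := by
            rcases Finset.mem_union.1 hx with h | h
            · exact ⟨(Finset.mem_filter.1 h).1, (Finset.mem_filter.1 (Finset.mem_filter.1 h).2).1⟩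
            · exact ⟨(Finset.mem_filter.1 h).1, (Finset.mem_filter.1 h).2.1⟩
          obtain ⟨t, ht, he⟩ := (Finset.mem_filter.1 hx'.2).2
          exact Finset.mem_biUnion.2 ⟨t, ht, Finset.mem_filter.2 ⟨hx'.1, he⟩⟩
        · rw [Finset.disjoint_left]
          intro x h1 h2
          exact (Finset.mem_filter.1 h2).2.2 (hSn _ (Finset.mem_filter.1 h1).2)
      have k4 : (Y.filter fun t => t.1 ∈ T.B3 S).card ≤ (T.B3 S).card :=
        Finset.card_le_card_of_injOn (fun t => t.1)
          (fun t ht => (Finset.mem_filter.1 (Finset.mem_coe.1 ht)).2)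
          (fun a _ b _ h => Subtype.ext h)
      have k5 : (Y.filter fun t => ¬ t.1 ∈ T.B3 S).card ≤ SlR.card := by
        refine le_trans ?_ (Finset.card_image_le (f := T.blk))
        refine Finset.card_le_card_of_injOn (fun t => t.1) (fun t ht => ?_)
          (fun a _ b _ h => Subtype.ext h)
        obtain ⟨htY, hn⟩ := Finset.mem_filter.1 (Finset.mem_coe.1 ht)
        simp only [B3, Finset.mem_filter, Finset.mem_univ, true_and, not_forall] at hn
        obtain ⟨e, he, hne⟩ := hn
        have heU : T.tail e ∈ U := Finset.mem_filter.2 ⟨Finset.mem_univ _, t, htY, e, he, rfl⟩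
        have hnr : ¬ T.NonRoot b0 (T.tail e) := fun h => hne (Finset.mem_filter.2 ⟨heU, h⟩)
        refine Finset.mem_coe.2 (Finset.mem_image.2 ⟨e, Finset.mem_filter.2
          ⟨Finset.mem_filter.2 ⟨Finset.mem_univ _, by rw [he]; exact t.2,
            fun h => absurd h hnr⟩, heU, hnr⟩, he⟩)
      have k6 := Finset.card_filter_add_card_filter_not (s := Y) (fun t => t.1 ∈ T.B3 S)
      omega)
  have hfS : ∀ t, f t ∈ Sl := fun t => (Finset.mem_filter.1 (hf t)).1
  choose p hpb hpt using fun t => (Finset.mem_filter.1 (hf t)).2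
  have hSlcard : Sl.card ≤ Fintype.card (T.Inner b0) := by
    have h1 := hbU (univ.filter (T.NonRoot b0)) (fun v hv => (Finset.mem_filter.1 hv).2)
    rw [T.card_nonroot] at h1
    have h2 := T.card_fiber_blk b0
    have h3 : (Sl ∪ (univ.filter fun e => T.blk e = b0) ∪
        (univ.filter (T.NonRoot b0)).biUnion P).card ≤ Fintype.card T.E := Finset.card_le_univ _
    rw [Finset.card_union_of_disjoint, Finset.card_union_of_disjoint, h1, h2, T.card_E_blk] at h3
    · have := T.card_inner b0
      omega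
    · rw [Finset.disjoint_left]
      intro e h1 h2
      exact (Finset.mem_filter.1 h1).2.1 (Finset.mem_filter.1 h2).2
    · rw [Finset.disjoint_left]
      intro e h1 h2
      obtain ⟨v, hv, hev⟩ := Finset.mem_biUnion.1 h2
      have hv' := (Finset.mem_filter.1 hv).2
      have ht := (hP v hv').1 e hev
      rcases Finset.mem_union.1 h1 with h | h
      · exact (Finset.mem_filter.1 h).2.2 (ht ▸ hv') (ht ▸ hev)
      · exact hv' e (Finset.mem_filter.1 h).2 ht
  have hfim : univ.image f = Sl := by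
    apply Finset.eq_of_subset_of_card_le
    · intro x hx
      obtain ⟨t, -, rfl⟩ := Finset.mem_image.1 hx
      exact hfS t
    · rw [Finset.card_image_of_injective _ hfinj, Finset.card_univ]
      exact hSlcard
  have hpinj : Function.Injective p := fun a b h => Subtype.ext (by rw [← hpb, h, hpb])
  refine ⟨p, hpb, fun v => ?_⟩
  have a1 : (Sl.filter fun x => T.tail x = v).card =
      (univ.filter fun t => T.tail (p t) = v).card := by
    rw [← hfim, Finset.filter_image, Finset.card_image_of_injective _ hfinj]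
    simp only [hpt]
  have a2 : (univ.filter fun e => T.blk e ≠ b0 ∧ T.tail e = v ∧ ∀ t, e ≠ p t).card +
      (univ.filter fun t => T.tail (p t) = v).card ≤
      (univ.filter fun e => T.blk e ≠ b0 ∧ T.tail e = v).card := by
    rw [← Finset.card_image_of_injective (univ.filter fun t => T.tail (p t) = v) hpinj,
      ← Finset.card_union_of_disjoint]
    · refine Finset.card_le_card fun e he => ?_
      simp only [Finset.mem_union, Finset.mem_filter, Finset.mem_univ, true_and,
        Finset.mem_image] at he ⊢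
      rcases he with h | ⟨t, ht, rfl⟩
      · exact ⟨h.1, h.2.1⟩
      · exact ⟨by rw [hpb]; exact t.2, ht⟩
    · rw [Finset.disjoint_left]
      intro e h1 h2
      obtain ⟨t, -, rfl⟩ := Finset.mem_image.1 h2
      exact (Finset.mem_filter.1 h1).2.2.2 t rfl
  have a3 : (univ.filter fun e => T.blk e ≠ b0 ∧ T.tail e = v).card ≤
      (Sl.filter fun x => T.tail x = v).card + if T.NonRoot b0 v then 2 else 0 := by
    split_ifs with hv
    · rw [← (hP v hv).2]
      refine le_trans (Finset.card_le_card fun e he => ?_) (Finset.card_union_le _ _)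
      obtain ⟨h1, h2⟩ := (Finset.mem_filter.1 he).2
      rw [Finset.mem_union]
      by_cases h : e ∈ P v
      · exact Or.inr h
      · exact Or.inl (Finset.mem_filter.2 ⟨Finset.mem_filter.2
          ⟨Finset.mem_univ _, h1, fun _ => h2 ▸ h⟩, h2⟩)
    · refine Finset.card_le_card fun e he => ?_
      obtain ⟨h1, h2⟩ := (Finset.mem_filter.1 he).2
      exact Finset.mem_filter.2 ⟨Finset.mem_filter.2
          ⟨Finset.mem_univ _, h1, fun h => absurd (h2 ▸ h) hv⟩, h2⟩
  omega

theorem exists_pair (hI : T.Irred) : ∃ r s : T.Inner b0 → T.E,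
    T.State b0 r ∧ T.State b0 s ∧ ∀ t, r t ≠ s t := by
  classical
  obtain ⟨p, hpb, hp⟩ := exists_omit (b0 := b0) hI
  set X : T.V → Finset T.E := fun v =>
    univ.filter fun e => T.blk e ≠ b0 ∧ T.tail e = v ∧ ∀ t, e ≠ p t with hX
  have hmem : ∀ (t : T.Inner b0) e, T.blk e = t.1 → e ≠ p t → e ∈ X (T.tail e) := by
    intro t e h1 h2
    refine Finset.mem_filter.2 ⟨Finset.mem_univ _, by rw [h1]; exact t.2, rfl, fun t' h => ?_⟩
    have : t' = t := Subtype.ext (by rw [← hpb, ← h, h1])
    exact h2 (this ▸ h)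
  have hnr : ∀ (t : T.Inner b0) e, T.blk e = t.1 → e ≠ p t → T.NonRoot b0 (T.tail e) := by
    intro t e h1 h2
    by_contra hc
    have h3 := hp (T.tail e)
    rw [if_neg hc] at h3
    have := Finset.card_pos.2 ⟨e, hmem t e h1 h2⟩
    simp only [hX] at this
    omega
  have hX2 : ∀ v, (X v).card ≤ 2 := fun v => (hp v).trans (by split_ifs <;> omega)
  have b1 : ∀ t, T.blk (T.nb (p t)) = t.1 := fun t => by rw [T.blk_nb, hpb]
  have b2 : ∀ t, T.blk (T.nb (T.nb (p t))) = t.1 := fun t => by rw [T.blk_nb, T.blk_nb, hpb]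
  obtain ⟨f, hfinj, hf⟩ := (Finset.all_card_le_biUnion_card_iff_exists_injective
    (fun t : T.Inner b0 => ({T.tail (T.nb (p t)), T.tail (T.nb (T.nb (p t)))} : Finset T.V))).1
    (by
      intro Y
      set N := Y.biUnion fun t : T.Inner b0 =>
        ({T.tail (T.nb (p t)), T.tail (T.nb (T.nb (p t)))} : Finset T.V) with hN
      have h1 : (Y.biUnion fun t => ({T.nb (p t), T.nb (T.nb (p t))} : Finset T.E)).card =
          2 * Y.card := by
        rw [Finset.card_biUnion, Finset.sum_congr rfl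
          (fun t _ => Finset.card_pair (T.nb2_ne_nb (p t)).symm)]
        · simp [mul_comm]
        · intro t _ t' _ hne
          rw [Function.onFun, Finset.disjoint_left]
          intro e h1 h2
          apply hne
          have a1 : T.blk e = t.1 := by
            rcases Finset.mem_insert.1 h1 with h | h
            · rw [h, b1]
            · rw [Finset.mem_singleton.1 h, b2]
          have a2 : T.blk e = t'.1 := by
            rcases Finset.mem_insert.1 h2 with h | h
            · rw [h, b1]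
            · rw [Finset.mem_singleton.1 h, b2]
          exact Subtype.ext (a1.symm.trans a2)
      have h2 : (Y.biUnion fun t => ({T.nb (p t), T.nb (T.nb (p t))} : Finset T.E)).card ≤
          (N.biUnion X).card := by
        refine Finset.card_le_card fun e he => ?_
        obtain ⟨t, ht, het⟩ := Finset.mem_biUnion.1 he
        rcases Finset.mem_insert.1 het with h | h
        · exact Finset.mem_biUnion.2 ⟨T.tail e, Finset.mem_biUnion.2 ⟨t, ht, by simp [h]⟩,
            hmem t e (by rw [h, b1]) (by rw [h]; exact T.nb_ne _)⟩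
        · rw [Finset.mem_singleton] at h
          exact Finset.mem_biUnion.2 ⟨T.tail e, Finset.mem_biUnion.2 ⟨t, ht, by simp [h]⟩,
            hmem t e (by rw [h, b2]) (by rw [h]; exact T.nb2_ne _)⟩
      have h3 := Finset.card_biUnion_le_card_mul N X 2 (fun v _ => hX2 v)
      omega)
  have hrs : ∀ t, ∃ a b : T.E, T.blk a = t.1 ∧ T.blk b = t.1 ∧ a ≠ p t ∧ b ≠ p t ∧ a ≠ b ∧
      T.tail b = f t := by
    intro t
    rcases Finset.mem_insert.1 (hf t) with h | h
    · exact ⟨_, _, b2 t, b1 t, T.nb2_ne _, T.nb_ne _, T.nb2_ne_nb _, h.symm⟩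
    · exact ⟨_, _, b1 t, b2 t, T.nb_ne _, T.nb2_ne _, (T.nb2_ne_nb _).symm,
        (Finset.mem_singleton.1 h).symm⟩
  choose r s hrb hsb hrp hsp hne hsf using hrs
  have hs : T.State b0 s :=
    ⟨hsb, fun t t' h => hfinj (by rw [← hsf, h, hsf]), fun t => hnr t _ (hsb t) (hsp t)⟩
  refine ⟨r, s, ⟨hrb, fun t t' h => ?_, fun t => hnr t _ (hrb t) (hrp t)⟩, hs, hne⟩
  by_contra hc
  obtain ⟨t'', ht''⟩ := hs.surj (hnr t _ (hrb t) (hrp t))
  have m1 := hmem t _ (hrb t) (hrp t)
  have m2 := hmem t' _ (hrb t') (hrp t')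
  have m3 := hmem t'' _ (hsb t'') (hsp t'')
  rw [← h] at m2
  rw [ht''] at m3
  have n1 : r t ≠ r t' := fun h' => hc (Subtype.ext (by rw [← hrb, h', hrb]))
  have n2 : ∀ x, r x ≠ s t'' := fun x h' => by
    have : x = t'' := Subtype.ext (by rw [← hrb, h', hsb])
    exact hne x (this ▸ h')
  have : 2 < (X (T.tail (r t))).card := Finset.two_lt_card.2
    ⟨r t, m1, r t', m2, s t'', m3, n1, n2 t, n2 t'⟩
  have := hX2 (T.tail (r t))
  omega

end Tri

end Vale.Agent.P039
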