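import Vale.Agent.P039.Sum

/-!
The perfect matching with connected complement in the irreducible case.
-/

namespace Vale.Agent.P039

open Finset

universe u

namespace Tri

variable (T : Tri.{u})

/-- a perfect matching of the dual graph whose complement is connected -/
structure Good (M : Finset T.E) : Prop where
  blk1 : ∀ b, ∃! e, e ∈ M ∧ T.blk e = b
  wht1 : ∀ w, ∃! e, e ∈ M ∧ T.wht e = w
  conn : ∀ (φ : T.B → ℝ) (ψ : T.W → ℝ), (∀ e, e ∉ M → φ (T.blk e) = ψ (T.wht e)) →
    ∀ b w, φ b = ψ w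

variable {T}

lemma Good.swap {M : Finset T.E} (h : T.Good M) : T.swap.Good M :=
  ⟨h.wht1, h.blk1, fun ψ φ hh w b => (h.conn φ ψ (fun e he => (hh e he).symm) b w).symm⟩

lemma gE_third {a a' : T.E} (hb : T.blk a' = T.blk a) (hne : a' ≠ a) :
    T.gE a' (T.third a a') = T.nb a := by
  rcases third_cases hb hne with ⟨h1, h2⟩ | ⟨h1, h2⟩
  · rw [h2, h1]; simp [gE]
  · rw [h2, h1]; simp [gE, T.nb3, T.nb_ne]

lemma tree_conn {b0 : T.B} {r s : T.Inner b0 → T.E} (h : T.Pair b0 (r, s))
    (hno : ¬ ∃ C π, T.IsCyc b0 r (fun t => T.third (s t) (r t)) C π) (ψ : T.W → ℝ)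
    (hψ : ∀ t, ψ (T.wht (s t)) = ψ (T.wht (T.nb (T.nb (s t))))) (w w' : T.W) : ψ w = ψ w' := by
  obtain ⟨hr, hs, hne⟩ := h
  simp only at hr hs hne
  obtain ⟨e0, rfl⟩ := T.blk_surj b0
  have hb : ∀ t, T.blk (r t) = T.blk (s t) := fun t => by rw [hr.blk_eq, hs.blk_eq]
  set φ : T.B → ℝ := fun b => if h : b = T.blk e0 then ψ (T.wht e0) else ψ (T.wht (s ⟨b, h⟩))
    with hφ
  have hφt : ∀ t : T.Inner (T.blk e0), φ t.1 = ψ (T.wht (s t)) := fun t => by
    simp only [hφ, dif_neg t.2]
  have hcases : ∀ e, T.blk e ≠ T.blk e0 → T.bd φ ψ e = 0 ∨ ∃ t, e = T.nb (s t) := by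
    intro e he
    set t : T.Inner (T.blk e0) := ⟨T.blk e, he⟩
    have h1 : φ (T.blk e) = ψ (T.wht (s t)) := hφt t
    rcases (T.blk_eq (s t) e).1 (hs.blk_eq t).symm with h2 | h2 | h2
    · left; rw [bd, h1, ← h2, sub_self]
    · right; exact ⟨t, h2⟩
    · left; rw [bd, h1, hψ, ← h2, sub_self]
  have hv := circ_vanish hr (u' := fun t => T.third (s t) (r t))
    (fun t => by rw [blk_third, hs.blk_eq]) (fun t => third_ne_right _ _) hno _
    (T.isCirc_bd φ ψ) (fun e he => by
      by_cases h1 : T.blk e = T.blk e0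
      · exact Or.inl h1
      · obtain ⟨t, ht⟩ := (hcases e h1).resolve_left he
        exact Or.inr ⟨t, by rw [gE_third (hb t) (hne t), ht]⟩)
  have hall := T.c3 (T.nb e0) (T.nb (T.nb e0)) φ ψ (fun e h1 h2 => by
    by_cases h3 : T.blk e = T.blk e0
    · rcases (T.blk_eq e0 e).1 h3 with h4 | h4 | h4
      · rw [h4]; simp [hφ]
      · exact absurd h4 h1
      · exact absurd h4 h2
    · rcases hcases e h3 with h4 | ⟨t, ht⟩
      · exact sub_eq_zero.1 h4
      · have := hv t
        rw [gE_third (hb t) (hne t), ← ht] at this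
        exact sub_eq_zero.1 this)
  rw [← hall (T.blk e0) w, ← hall (T.blk e0) w']

/-- difference map along the tree edges -/
def treeMap {b0 : T.B} (s : T.Inner b0 → T.E) (Y : Finset T.W) (N : Finset (T.Inner b0)) :
    (Y → ℝ) →ₗ[ℝ] (N → ℝ) where
  toFun y t := ext0 Y y (T.wht (s t)) - ext0 Y y (T.wht (T.nb (T.nb (s t))))
  map_add' x y := by
    ext t
    simp only [map_add, Pi.add_apply]
    ring
  map_smul' c x := by
    ext t
    simp only [map_smul, Pi.smul_apply, smul_eq_mul, RingHom.id_apply]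
    ring

theorem irred_good (hI : T.Irred) (e0 : T.E) : ∃ M, e0 ∈ M ∧ T.Good M := by
  classical
  obtain ⟨r, s, h, hno⟩ := exists_acyclic_pair (b0 := T.blk e0) hI
  have htree := tree_conn h hno
  obtain ⟨-, hs, -⟩ := h
  simp only at hs
  obtain ⟨f, hfinj, hf⟩ := (Finset.all_card_le_biUnion_card_iff_exists_injective
    (fun w : {w : T.W // w ≠ T.wht e0} => univ.filter fun t : T.Inner (T.blk e0) =>
      T.wht (s t) = w.1 ∨ T.wht (T.nb (T.nb (s t))) = w.1)).1 (by
      intro Y
      set N := Y.biUnion fun w : {w : T.W // w ≠ T.wht e0} =>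
        univ.filter fun t : T.Inner (T.blk e0) =>
          T.wht (s t) = w.1 ∨ T.wht (T.nb (T.nb (s t))) = w.1 with hN
      set Y' : Finset T.W := Y.map (Function.Embedding.subtype _) with hY'
      have hinj : Function.Injective (treeMap s Y' N) := by
        rw [injective_iff_map_eq_zero]
        intro y hy
        have h0 : T.wht e0 ∉ Y' := by simp [hY']
        have := htree (ext0 Y' y) (fun t => by
          by_cases ht : t ∈ N
          · exact sub_eq_zero.1 (congrFun hy ⟨t, ht⟩)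
          · have key : ∀ w, (T.wht (s t) = w ∨ T.wht (T.nb (T.nb (s t))) = w) → w ∉ Y' := by
              intro w hw hwY
              obtain ⟨w', hw', rfl⟩ := Finset.mem_map.1 hwY
              exact ht (Finset.mem_biUnion.2 ⟨w', hw', Finset.mem_filter.2
                ⟨Finset.mem_univ _, hw⟩⟩)
            rw [ext0_not_mem _ _ (key _ (Or.inl rfl)), ext0_not_mem _ _ (key _ (Or.inr rfl))])
        ext a
        rw [← ext0_mem Y' y a, this a (T.wht e0), ext0_not_mem _ _ h0]
        rfl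
      have := LinearMap.finrank_le_finrank_of_injective hinj
      simp only [Module.finrank_fintype_fun_eq_card, Fintype.card_coe] at this
      rw [hY', Finset.card_map] at this
      exact this)
  have hcard : Fintype.card {w : T.W // w ≠ T.wht e0} = Fintype.card (T.Inner (T.blk e0)) := by
    have h1 : Fintype.card {w : T.W // w ≠ T.wht e0} + 1 = Fintype.card T.W :=
      T.swap.card_inner (T.wht e0)
    have h2 := T.card_inner (T.blk e0)
    have h3 := T.card_W
    omega
  set F := Equiv.ofBijective f ((Fintype.bijective_iff_injective_and_card f).2 ⟨hfinj, hcard⟩)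
    with hF
  have hg : ∀ t, T.wht (s t) = (F.symm t).1 ∨ T.wht (T.nb (T.nb (s t))) = (F.symm t).1 := by
    intro t
    have := (Finset.mem_filter.1 (hf (F.symm t))).2
    have h1 : f (F.symm t) = t := F.apply_symm_apply t
    rwa [h1] at this
  set m : T.Inner (T.blk e0) → T.E := fun t =>
    if T.wht (s t) = (F.symm t).1 then s t else T.nb (T.nb (s t)) with hm
  set u' : T.Inner (T.blk e0) → T.E := fun t =>
    if T.wht (s t) = (F.symm t).1 then T.nb (s t) else T.nb (T.nb (s t)) with hu'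
  have hmb : ∀ t, T.blk (m t) = t.1 := fun t => by
    simp only [hm]; split_ifs <;> simp [hs.blk_eq]
  have hmw : ∀ t, T.wht (m t) = (F.symm t).1 := fun t => by
    simp only [hm]; split_ifs with h1
    · exact h1
    · exact (hg t).resolve_left h1
  have hu'b : ∀ t, T.blk (u' t) = t.1 := fun t => by
    simp only [hu']; split_ifs <;> simp [hs.blk_eq]
  have hu'ne : ∀ t, u' t ≠ s t := fun t => by
    simp only [hu']; split_ifs
    · exact T.nb_ne _
    · exact T.nb2_ne _
  have hgm : ∀ t, T.gE (s t) (u' t) = m t := fun t => by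
    simp only [hu', hm]; split_ifs
    · simp [gE]
    · simp [gE, T.nb2_ne_nb]
  set M : Finset T.E := insert e0 (univ.image m) with hM
  have hmemM : ∀ e, e ∈ M ↔ e = e0 ∨ ∃ t, m t = e := fun e => by simp [hM]
  have hb1 : ∀ b, ∃! e, e ∈ M ∧ T.blk e = b := by
    intro b
    by_cases hb : b = T.blk e0
    · refine ⟨e0, ⟨(hmemM _).2 (Or.inl rfl), hb.symm⟩, ?_⟩
      rintro e ⟨h1, h2⟩
      rcases (hmemM e).1 h1 with h3 | ⟨t, rfl⟩
      · exact h3
      · exact absurd (by rw [← hmb t, h2, hb]) t.2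
    · refine ⟨m ⟨b, hb⟩, ⟨(hmemM _).2 (Or.inr ⟨_, rfl⟩), hmb _⟩, ?_⟩
      rintro e ⟨h1, h2⟩
      rcases (hmemM e).1 h1 with h3 | ⟨t, rfl⟩
      · exact absurd (by rw [← h2, h3]) hb
      · congr 1
        exact Subtype.ext (by rw [← hmb t, h2])
  have hw1 : ∀ w, ∃! e, e ∈ M ∧ T.wht e = w := by
    intro w
    by_cases hw : w = T.wht e0
    · refine ⟨e0, ⟨(hmemM _).2 (Or.inl rfl), hw.symm⟩, ?_⟩
      rintro e ⟨h1, h2⟩
      rcases (hmemM e).1 h1 with h3 | ⟨t, rfl⟩
      · exact h3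
      · exact absurd (by rw [← hmw t, h2, hw]) (F.symm t).2
    · refine ⟨m (F ⟨w, hw⟩), ⟨(hmemM _).2 (Or.inr ⟨_, rfl⟩), by rw [hmw]; simp⟩, ?_⟩
      rintro e ⟨h1, h2⟩
      rcases (hmemM e).1 h1 with h3 | ⟨t, rfl⟩
      · exact absurd (by rw [← h2, h3]) hw
      · congr 1
        rw [← F.apply_symm_apply t]
        congr 1
        exact Subtype.ext (by rw [← hmw t, h2])
  refine ⟨M, (hmemM _).2 (Or.inl rfl), hb1, hw1, fun φ ψ hφψ => ?_⟩
  have hno' : ¬ ∃ C π, T.IsCyc (T.blk e0) s u' C π := by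
    rintro ⟨C, π, hc⟩
    obtain ⟨σ, DB, DW, hσ, -, hcard', hsum⟩ := cycle_lemma hs hu'b hu'ne hc
    have a1 := hsum (fun _ => 1)
    have a2 := hsum (fun e => if e ∈ M then 1 else 0)
    have a3 : ∑ t ∈ C, T.eps (s t) (u' t) * (if T.gE (s t) (u' t) ∈ M then 1 else 0) =
        ∑ t ∈ C, T.eps (s t) (u' t) * 1 := Finset.sum_congr rfl fun t _ => by
      rw [hgm, if_pos ((hmemM _).2 (Or.inr ⟨t, rfl⟩))]
    have a4 : ∀ b, ∑ e ∈ univ.filter (fun e => T.blk e = b), (if e ∈ M then (1 : ℝ) else 0) = 1 := by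
      intro b
      obtain ⟨e, ⟨h1, h2⟩, h3⟩ := hb1 b
      rw [Finset.sum_eq_single e, if_pos h1]
      · intro e' he' hne
        exact if_neg fun h4 => hne (h3 e' ⟨h4, (Finset.mem_filter.1 he').2⟩)
      · intro h4
        exact (h4 (Finset.mem_filter.2 ⟨Finset.mem_univ e, h2⟩)).elim
    have a5 : ∀ w, ∑ e ∈ univ.filter (fun e => T.wht e = w), (if e ∈ M then (1 : ℝ) else 0) = 1 := by
      intro w
      obtain ⟨e, ⟨h1, h2⟩, h3⟩ := hw1 w
      rw [Finset.sum_eq_single e, if_pos h1]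
      · intro e' he' hne
        exact if_neg fun h4 => hne (h3 e' ⟨h4, (Finset.mem_filter.1 he').2⟩)
      · intro h4
        exact (h4 (Finset.mem_filter.2 ⟨Finset.mem_univ e, h2⟩)).elim
    rw [a3, a1] at a2
    simp_rw [sub_mul] at a2
    rw [Finset.sum_sub_distrib, Finset.sum_sub_distrib,
      T.sum_mul_blk (fun b => if b ∈ DB then 1 else 0) (fun e => if e ∈ M then 1 else 0),
      T.sum_mul_wht (fun w => if w ∈ DW then 1 else 0) (fun e => if e ∈ M then 1 else 0)] at a2
    simp only [mul_one, a4, a5] at a2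
    rw [T.sum_blk (fun b => if b ∈ DB then 1 else 0),
      T.sum_wht (fun w => if w ∈ DW then 1 else 0)] at a2
    simp only [Finset.sum_ite_mem, Finset.univ_inter, Finset.sum_const, nsmul_eq_mul, mul_one,
      hcard', Nat.cast_add, Nat.cast_one] at a2
    rcases hσ with rfl | rfl <;> linarith
  have hv := circ_vanish hs hu'b hu'ne hno' _ (T.isCirc_bd φ ψ) (fun e he => by
    have : e ∈ M := by
      by_contra hc
      exact he (sub_eq_zero.2 (hφψ e hc))
    rcases (hmemM e).1 this with h3 | ⟨t, rfl⟩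
    · exact Or.inl (by rw [h3])
    · exact Or.inr ⟨t, (hgm t).symm⟩)
  refine T.c3 e0 e0 φ ψ fun e h1 _ => ?_
  by_cases he : e ∈ M
  · obtain ⟨t, rfl⟩ := ((hmemM e).1 he).resolve_left h1
    have := hv t
    rw [hgm] at this
    exact sub_eq_zero.1 this
  · exact hφψ e he

end Tri

end Vale.Agent.P039
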