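import Vale.Agent.P039.Hall

/-!
The weighted sum over pairs of states.
-/

namespace Vale.Agent.P039

open Finset Polynomial

universe u

lemma prod_one_add_X {ι : Type*} (s : Finset ι) (a : ι → ℂ) :
    ∃ G : ℂ[X], ∏ t ∈ s, (1 + C (a t) * X) = 1 + X * G ∧ G.eval 0 = ∑ t ∈ s, a t := by
  classical
  induction s using Finset.induction_on with
  | empty => exact ⟨0, by simp, by simp⟩
  | insert x s hx ih =>
    obtain ⟨G, h1, h2⟩ := ih
    refine ⟨C (a x) + G + C (a x) * X * G, ?_, ?_⟩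
    · rw [Finset.prod_insert hx, h1]; ring
    · rw [Finset.sum_insert hx, ← h2]; simp

lemma sum_poly_ne_zero {ι : Type*} (I : Finset ι) (hI : I.Nonempty) (q : ι → ℂ[X]) (κ : ℂ)
    (hκ : κ ≠ 0) (h : ∀ i ∈ I, ∃ (c : ℕ) (G : ℂ[X]) (A : ℝ), 0 < A ∧ q i = X ^ c * G ∧
      G.eval 0 = κ ^ c * A) : ∑ i ∈ I, q i ≠ 0 := by
  choose! c G A hA hq hG using h
  obtain ⟨i0, hi0, hmin⟩ := Finset.exists_min_image I c hI
  have e1 : ∑ i ∈ I, q i = X ^ c i0 * ∑ i ∈ I, X ^ (c i - c i0) * G i := by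
    rw [Finset.mul_sum]
    refine Finset.sum_congr rfl fun i hi => ?_
    rw [hq i hi, ← mul_assoc, ← pow_add, Nat.add_sub_cancel' (hmin i hi)]
  intro h0
  rw [e1, mul_eq_zero] at h0
  rcases h0 with h0 | h0
  · exact pow_ne_zero _ X_ne_zero h0
  have e2 := congrArg (Polynomial.eval 0) h0
  rw [Polynomial.eval_finsetSum, Polynomial.eval_zero] at e2
  have e3 : ∑ i ∈ I, Polynomial.eval 0 (X ^ (c i - c i0) * G i) =
      κ ^ c i0 * ((∑ i ∈ I, if c i = c i0 then A i else 0 : ℝ) : ℂ) := by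
    rw [Complex.ofReal_sum, Finset.mul_sum]
    refine Finset.sum_congr rfl fun i hi => ?_
    rw [Polynomial.eval_mul, Polynomial.eval_pow, Polynomial.eval_X, hG i hi]
    split_ifs with hc
    · rw [hc]; simp
    · have : c i - c i0 ≠ 0 := by have := hmin i hi; omega
      simp [this]
  rw [e3, mul_eq_zero] at e2
  rcases e2 with e2 | e2
  · exact pow_ne_zero _ hκ e2
  · have : 0 < ∑ i ∈ I, if c i = c i0 then A i else 0 :=
      Finset.sum_pos' (fun i hi => by
        split_ifs
        · exact (hA i hi).le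
        · exact le_rfl) ⟨i0, hi0, by simpa using hA i0 hi0⟩
    exact this.ne' (by exact_mod_cast e2)

lemma prod_eta {ι : Type*} (s : Finset ι) (q : ι → Prop) [DecidablePred q] {ω : ℂ}
    (hω : ω ^ 3 = Complex.I) {σ : ℝ} (hσ : σ = 1 ∨ σ = -1)
    (h : ∑ t ∈ s, (if q t then (1 : ℝ) else -1) = -3 * σ) :
    ∏ t ∈ s, (if q t then ω else ω⁻¹) = -σ * Complex.I := by
  have hω0 : ω ≠ 0 := by
    rintro rfl
    simp [eq_comm, Complex.I_ne_zero] at hω
  rw [Finset.sum_ite, Finset.sum_const, Finset.sum_const] at h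
  rw [Finset.prod_ite, Finset.prod_const, Finset.prod_const]
  set m := (s.filter q).card
  set n := (s.filter fun t => ¬ q t).card
  simp only [nsmul_eq_mul, mul_one, mul_neg] at h
  rcases hσ with rfl | rfl
  · have : n = m + 3 := by
      have : (n : ℝ) = m + 3 := by linarith
      exact_mod_cast this
    rw [this, pow_add, ← mul_assoc, ← mul_pow, mul_inv_cancel₀ hω0, inv_pow, hω]
    simp
  · have : m = n + 3 := by
      have : (m : ℝ) = n + 3 := by linarith
      exact_mod_cast this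
    rw [this, pow_add, mul_right_comm, ← mul_pow, mul_inv_cancel₀ hω0, hω]
    simp

namespace Tri

variable (T : Tri.{u}) (b0 : T.B)

/-- linear map used to solve for a form with prescribed curvature -/
def curv : ((T.B → ℝ) × (T.W → ℝ)) →ₗ[ℝ] ((T.B → ℝ) × (T.W → ℝ)) where
  toFun x := (fun b => if b = b0 then x.1 b0 else
      ∑ e ∈ univ.filter (fun e => T.blk e = b), T.bd x.1 x.2 e,
    fun w => ∑ e ∈ univ.filter (fun e => T.wht e = w), T.bd x.1 x.2 e)
  map_add' x y := by
    ext b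
    · simp only [bd, Prod.fst_add, Prod.snd_add, Pi.add_apply]
      split_ifs
      · rfl
      · rw [← Finset.sum_add_distrib]
        exact Finset.sum_congr rfl fun e _ => by ring
    · simp only [bd, Prod.fst_add, Prod.snd_add, Pi.add_apply]
      rw [← Finset.sum_add_distrib]
      exact Finset.sum_congr rfl fun e _ => by ring
  map_smul' c x := by
    ext b
    · simp only [bd, Prod.smul_fst, Prod.smul_snd, Pi.smul_apply, smul_eq_mul, RingHom.id_apply]
      split_ifs
      · rfl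
      · rw [Finset.mul_sum]
        exact Finset.sum_congr rfl fun e _ => by ring
    · simp only [bd, Prod.smul_fst, Prod.smul_snd, Pi.smul_apply, smul_eq_mul, RingHom.id_apply]
      rw [Finset.mul_sum]
      exact Finset.sum_congr rfl fun e _ => by ring

lemma sum_mul_blk (g : T.B → ℝ) (α : T.E → ℝ) : ∑ e, g (T.blk e) * α e =
    ∑ b, g b * ∑ e ∈ univ.filter (fun e => T.blk e = b), α e := by
  rw [← Finset.sum_fiberwise univ T.blk]
  refine Finset.sum_congr rfl fun b _ => ?_
  rw [Finset.mul_sum]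
  refine Finset.sum_congr rfl fun e he => ?_
  rw [(Finset.mem_filter.1 he).2]

lemma sum_mul_wht (g : T.W → ℝ) (α : T.E → ℝ) : ∑ e, g (T.wht e) * α e =
    ∑ w, g w * ∑ e ∈ univ.filter (fun e => T.wht e = w), α e := T.swap.sum_mul_blk g α

lemma exists_form : ∃ α : T.E → ℝ,
    (∀ b, b ≠ b0 → ∑ e ∈ univ.filter (fun e => T.blk e = b), α e = 0) ∧
    (∀ w, ∑ e ∈ univ.filter (fun e => T.wht e = w), α e = -1) := by
  have hinj : Function.Injective (T.curv b0) := by
    rw [injective_iff_map_eq_zero]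
    rintro ⟨φ, ψ⟩ h
    have h0 : φ b0 = 0 := by simpa [curv] using congrFun (congrArg Prod.fst h) b0
    have h1 : ∀ b, b ≠ b0 → ∑ e ∈ univ.filter (fun e => T.blk e = b), T.bd φ ψ e = 0 :=
      fun b hb => by simpa [curv, hb] using congrFun (congrArg Prod.fst h) b
    have h2 : ∀ w, ∑ e ∈ univ.filter (fun e => T.wht e = w), T.bd φ ψ e = 0 :=
      fun w => by simpa [curv] using congrFun (congrArg Prod.snd h) w
    have h3 : ∑ e, T.bd φ ψ e ^ 2 = 0 := by
      have e1 : ∀ e, T.bd φ ψ e ^ 2 = φ (T.blk e) * T.bd φ ψ e - ψ (T.wht e) * T.bd φ ψ e := by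
        intro e; unfold bd; ring
      simp_rw [e1]
      rw [Finset.sum_sub_distrib, T.sum_mul_blk, T.sum_mul_wht]
      simp only [h2, mul_zero, Finset.sum_const_zero, sub_zero]
      refine Finset.sum_eq_zero fun b _ => ?_
      by_cases hb : b = b0
      · rw [hb, h0, zero_mul]
      · rw [h1 b hb, mul_zero]
    have h4 : ∀ e, T.bd φ ψ e = 0 := by
      intro e
      have := (Finset.sum_eq_zero_iff_of_nonneg (fun e _ => sq_nonneg (T.bd φ ψ e))).1 h3 e
        (Finset.mem_univ e)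
      exact pow_eq_zero_iff (two_ne_zero) |>.1 this
    have h5 := T.conn φ ψ (fun e => sub_eq_zero.1 (h4 e))
    obtain ⟨e0, -⟩ := T.blk_surj b0
    have h6 : ∀ w, ψ w = 0 := fun w => by rw [← h5 b0 w, h0]
    refine Prod.ext ?_ ?_
    · ext b; exact (h5 b (T.wht e0)).trans (h6 _)
    · ext w; exact h6 w
  obtain ⟨⟨φ, ψ⟩, h⟩ := LinearMap.injective_iff_surjective.1 hinj (0, fun _ => -1)
  exact ⟨T.bd φ ψ, fun b hb => by simpa [curv, hb] using congrFun (congrArg Prod.fst h) b,
    fun w => by simpa [curv] using congrFun (congrArg Prod.snd h) w⟩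

lemma exists_weight : ∃ a : T.E → ℝ, ∀ (u u' : T.Inner b0 → T.E), T.State b0 u →
    (∀ t, T.blk (u' t) = t.1) → (∀ t, u' t ≠ u t) → ∀ C π, T.IsCyc b0 u u' C π →
      ∃ σ n : ℝ, (σ = 1 ∨ σ = -1) ∧ 0 < n ∧ ∑ t ∈ C, T.eps (u t) (u' t) = -3 * σ ∧
        ∑ t ∈ C, (a (u t) - a (u' t)) = σ * n := by
  obtain ⟨α, hα1, hα2⟩ := T.exists_form b0
  refine ⟨fun e => (α e - α (T.nb (T.nb e))) / 3, fun u u' hu hb hne C π h => ?_⟩
  obtain ⟨σ, DB, DW, hσ, hb0, hcard, hsum⟩ := cycle_lemma hu hb hne h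
  refine ⟨σ, DW.card, hσ, by rw [hcard]; positivity, ?_, ?_⟩
  · have := hsum (fun _ => 1)
    simp only [mul_one] at this
    rw [this, Finset.sum_sub_distrib, T.sum_blk (fun b => if b ∈ DB then 1 else 0),
      T.sum_wht (fun w => if w ∈ DW then 1 else 0)]
    simp [hcard]
    ring
  · have h1 : ∑ e, ((if T.blk e ∈ DB then 1 else 0) - (if T.wht e ∈ DW then 1 else 0)) * α e =
        (DW.card : ℝ) := by
      simp_rw [sub_mul]
      rw [Finset.sum_sub_distrib, T.sum_mul_blk (fun b => if b ∈ DB then 1 else 0),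
        T.sum_mul_wht (fun w => if w ∈ DW then 1 else 0)]
      rw [Finset.sum_eq_zero]
      · simp [hα2]
      · intro b _
        split_ifs with hb'
        · rw [hα1 b (fun h => hb0 (h ▸ hb')), mul_zero]
        · rw [zero_mul]
    rw [← h1, ← hsum]
    refine Finset.sum_congr rfl fun t _ => ?_
    have h2 := hα1 t.1 t.2
    rw [← hu.blk_eq t, T.sum_fiber_blk] at h2
    rcases T.corner_cases ((hb t).trans (hu.blk_eq t).symm) (hne t) with
      ⟨h3, h4, h5⟩ | ⟨h3, -, h4, h5⟩
    · rw [h4, h5, h3]; simp only [T.nb3]; linarith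
    · rw [h4, h5, h3]; simp only [T.nb3]; linarith

/-- the third corner of a black face -/
def third (a a' : T.E) : T.E := if a' = T.nb a then T.nb (T.nb a) else T.nb a

variable {T b0}

lemma third_cases {a a' : T.E} (hb : T.blk a' = T.blk a) (hne : a' ≠ a) :
    (a' = T.nb a ∧ T.third a a' = T.nb (T.nb a)) ∨
      (a' = T.nb (T.nb a) ∧ T.third a a' = T.nb a) := by
  rcases T.corner_cases hb hne with ⟨h, -⟩ | ⟨h, -⟩
  · left; simp [third, h]
  · right
    have h' : a' ≠ T.nb a := by rw [h]; exact T.nb2_ne_nb a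
    exact ⟨h, by simp [third, h']⟩

lemma blk_third (a a' : T.E) : T.blk (T.third a a') = T.blk a := by
  unfold third; split_ifs <;> simp

lemma third_ne_left (a a' : T.E) : T.third a a' ≠ a := by
  unfold third; split_ifs
  · exact T.nb2_ne a
  · exact T.nb_ne a

lemma third_ne_right (a a' : T.E) : T.third a a' ≠ a' := by
  unfold third; split_ifs with h
  · rw [h]; exact T.nb2_ne_nb a
  · exact fun h' => h h'.symm

lemma third_third {a a' : T.E} (hb : T.blk a' = T.blk a) (hne : a' ≠ a) :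
    T.third a (T.third a a') = a' := by
  rcases third_cases hb hne with ⟨h1, h2⟩ | ⟨h1, h2⟩
  · rw [h2, h1]; simp [third, T.nb2_ne_nb]
  · rw [h2, h1]; simp [third]

lemma third_comm {a a' : T.E} (hb : T.blk a' = T.blk a) (hne : a' ≠ a) :
    T.third a' a = T.third a a' := by
  rcases third_cases hb hne with ⟨h1, h2⟩ | ⟨h1, h2⟩
  · rw [h2, h1]; simp [third, (T.nb2_ne a).symm]
  · rw [h2, h1]; simp [third, T.nb3]

lemma eq_or_third {a a' x : T.E} (hb : T.blk a' = T.blk a) (hne : a' ≠ a)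
    (hx : T.blk x = T.blk a) (hxa : x ≠ a) : x = a' ∨ x = T.third a a' := by
  rcases third_cases hb hne with ⟨h1, h2⟩ | ⟨h1, h2⟩ <;>
    rcases third_cases hx hxa with ⟨h3, -⟩ | ⟨h3, -⟩ <;> rw [h2, h3, h1] <;> simp

lemma third_eq_nb_iff {a a' : T.E} (hb : T.blk a' = T.blk a) (hne : a' ≠ a) :
    (T.third a a' = T.nb a' ↔ a' = T.nb a) ∧ (T.third a a' = T.nb a ↔ ¬ a' = T.nb a) ∧
      (a = T.nb a' ↔ ¬ a' = T.nb a) := by
  rcases third_cases hb hne with ⟨h1, h2⟩ | ⟨h1, h2⟩
  · rw [h2, h1]; simp [T.nb2_ne_nb, (T.nb2_ne a).symm]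
  · rw [h2, h1]; simp [T.nb2_ne_nb, T.nb3, T.nb_ne]

lemma pair_of_third_eq {a a' x x' : T.E} (hb : T.blk a' = T.blk a) (hne : a' ≠ a)
    (hx : T.blk x = T.blk a) (hx' : T.blk x' = T.blk a) (hne' : x' ≠ x)
    (h : T.third x x' = T.third a a') : (x' = a' ∧ x = a) ∨ (x' = a ∧ x = a') := by
  have h1 : x ≠ T.third a a' := h ▸ (third_ne_left x x').symm
  have h2 : x' ≠ T.third a a' := h ▸ (third_ne_right x x').symm
  by_cases hxa : x = a
  · left
    exact ⟨(eq_or_third hb hne hx' (hxa ▸ hne')).resolve_right h2, hxa⟩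
  · right
    have h3 := (eq_or_third hb hne hx hxa).resolve_right h1
    refine ⟨?_, h3⟩
    by_contra hc
    exact hne' (((eq_or_third hb hne hx' hc).resolve_right h2).trans h3.symm)

variable (T b0)

/-- pairs of states that differ in every face -/
def Pair (x : (T.Inner b0 → T.E) × (T.Inner b0 → T.E)) : Prop :=
  T.State b0 x.1 ∧ T.State b0 x.2 ∧ ∀ t, x.1 t ≠ x.2 t

/-- weight of a pair -/
noncomputable def wt (ω : ℂ) (a : T.E → ℝ) (x : (T.Inner b0 → T.E) × (T.Inner b0 → T.E)) :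
    ℂ[X] :=
  ∏ t, C (if x.1 t = T.nb (x.2 t) then ω else ω⁻¹) * (1 + C (a (x.2 t) : ℂ) * X)

variable {T b0}

lemma flip_good {ω : ℂ} (hω : ω ^ 3 = Complex.I) {r0 s r : T.Inner b0 → T.E}
    (h0 : T.Pair b0 (r0, s)) (h : T.Pair b0 (r, s)) {D : Finset (T.Inner b0)}
    {π : T.Inner b0 → T.Inner b0} (hc : T.IsCyc b0 r0 (fun t => T.third (s t) (r0 t)) D π)
    {σ : ℝ} (hσ : σ = 1 ∨ σ = -1)
    (hsum : ∑ t ∈ D, T.eps (r0 t) (T.third (s t) (r0 t)) = -3 * σ) :
    T.State b0 (fun t => if t ∈ D then T.third (s t) (r t) else r t) ∧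
      ∏ t ∈ D, (if r t = T.nb (s t) then ω else ω⁻¹) +
        ∏ t ∈ D, (if T.third (s t) (r t) = T.nb (s t) then ω else ω⁻¹) = 0 := by
  classical
  obtain ⟨hr0, hs, hne0⟩ := h0
  obtain ⟨hr, -, hne⟩ := h
  simp only at hr0 hs hne0 hr hne
  have b0' : ∀ t, T.blk (r0 t) = T.blk (s t) := fun t => by rw [hr0.blk_eq, hs.blk_eq]
  have b1 : ∀ t, T.blk (r t) = T.blk (s t) := fun t => by rw [hr.blk_eq, hs.blk_eq]
  have p1 : ∏ t ∈ D, (if r0 t = T.nb (s t) then ω else ω⁻¹) = -σ * Complex.I := by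
    refine prod_eta D _ hω hσ ?_
    rw [← hsum]
    refine Finset.sum_congr rfl fun t _ => ?_
    simp only [eps, (third_eq_nb_iff (b0' t) (hne0 t)).1]
  have p2 : ∏ t ∈ D, (if T.third (s t) (r0 t) = T.nb (s t) then ω else ω⁻¹) =
      -((-σ : ℝ) : ℂ) * Complex.I := by
    refine prod_eta D _ hω (by rcases hσ with h | h <;> simp [h]) ?_
    rw [mul_neg, ← hsum, ← Finset.sum_neg_distrib]
    refine Finset.sum_congr rfl fun t _ => ?_
    simp only [eps, (third_eq_nb_iff (b0' t) (hne0 t)).1, (third_eq_nb_iff (b0' t) (hne0 t)).2.1]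
    split_ifs <;> simp
  have hcases : (∀ t ∈ D, r t = r0 t) ∨ (∀ t ∈ D, r t = T.third (s t) (r0 t)) := by
    rcases (D.filter fun t => r t = T.third (s t) (r0 t)).eq_empty_or_nonempty with hJ | hJ
    · left
      intro t ht
      refine (eq_or_third (b0' t) (hne0 t) (b1 t) (hne t)).resolve_right fun h' => ?_
      have : t ∈ D.filter fun t => r t = T.third (s t) (r0 t) := Finset.mem_filter.2 ⟨ht, h'⟩
      simp [hJ] at this
    · right
      have := hc.min _ (Finset.filter_subset _ _) hJ (fun t ht => by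
        obtain ⟨ht1, ht2⟩ := Finset.mem_filter.1 ht
        refine Finset.mem_filter.2 ⟨hc.maps t ht1, ?_⟩
        refine (eq_or_third (b0' _) (hne0 _) (b1 _) (hne _)).resolve_left fun h' => ?_
        have h1 := hc.step t ht1
        have h2 : π t = t := hr.inj _ _ (by rw [h', h1, ht2])
        rw [h2] at h1
        exact third_ne_right _ _
          (T.tail_inj_face (by rw [blk_third, b0']) h1.symm))
      intro t ht
      rw [← this] at ht
      exact (Finset.mem_filter.1 ht).2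
  have key : (∀ t ∈ D, ∃ t' ∈ D, T.tail (T.third (s t) (r t)) = T.tail (r t')) →
      (∀ t ∈ D, ∀ t' ∈ D, T.tail (T.third (s t) (r t)) = T.tail (T.third (s t') (r t')) →
        t = t') → T.State b0 (fun t => if t ∈ D then T.third (s t) (r t) else r t) := by
    intro k1 k2
    refine ⟨fun t => ?_, fun t t' h' => ?_, fun t => ?_⟩
    · split_ifs
      · rw [blk_third, hs.blk_eq]
      · exact hr.blk_eq t
    · by_cases ht : t ∈ D <;> by_cases ht' : t' ∈ D <;> simp only [ht, ht', if_true, if_false] at h'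
      · exact k2 t ht t' ht' h'
      · obtain ⟨x, hx, hx'⟩ := k1 t ht
        exact absurd (hr.inj _ _ (hx'.symm.trans h') ▸ hx) ht'
      · obtain ⟨x, hx, hx'⟩ := k1 t' ht'
        exact absurd (hr.inj _ _ (hx'.symm.trans h'.symm) ▸ hx) ht
      · exact hr.inj _ _ h'
    · split_ifs with ht
      · obtain ⟨x, -, hx'⟩ := k1 t ht
        rw [hx']
        exact hr.nonroot x
      · exact hr.nonroot t
  rcases hcases with hD | hD
  · refine ⟨key (fun t ht => ⟨π t, hc.maps t ht, ?_⟩) (fun t ht t' ht' h' => ?_), ?_⟩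
    · rw [hD t ht, hD _ (hc.maps t ht), hc.step t ht]
    · rw [hD t ht, hD t' ht', ← hc.step t ht, ← hc.step t' ht'] at h'
      exact hc.inj t ht t' ht' (hr0.inj _ _ h')
    · rw [Finset.prod_congr rfl (fun t ht => by rw [hD t ht]), p1,
        Finset.prod_congr rfl (fun t ht => by rw [hD t ht]), p2]
      simp
  · have hD' : ∀ t ∈ D, T.third (s t) (r t) = r0 t := fun t ht => by
      rw [hD t ht, third_third (b0' t) (hne0 t)]
    refine ⟨key (fun t ht => ?_) (fun t ht t' ht' h' => ?_), ?_⟩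
    · rw [← hc.image] at ht
      obtain ⟨x, hx, rfl⟩ := Finset.mem_image.1 ht
      exact ⟨x, hx, by rw [hD' _ (hc.maps x hx), hc.step x hx, hD x hx]⟩
    · rw [hD' t ht, hD' t' ht'] at h'
      exact hr0.inj _ _ h'
    · rw [Finset.prod_congr rfl (fun t ht => by rw [hD t ht]), p2,
        Finset.prod_congr rfl (fun t ht => by rw [hD' t ht]), p1]
      simp

open Classical in
lemma sum_wt_eq_zero {ω : ℂ} (hω : ω ^ 3 = Complex.I) (a : T.E → ℝ)
    (hcyc : ∀ r s, T.Pair b0 (r, s) → ∃ (D : Finset (T.Inner b0)) (π : T.Inner b0 → T.Inner b0)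
      (σ : ℝ), T.IsCyc b0 r (fun t => T.third (s t) (r t)) D π ∧ (σ = 1 ∨ σ = -1) ∧
        ∑ t ∈ D, T.eps (r t) (T.third (s t) (r t)) = -3 * σ) :
    ∑ x ∈ univ.filter (T.Pair b0), T.wt b0 ω a x = 0 := by
  have hD : ∀ s : T.Inner b0 → T.E, ∃ D : Finset (T.Inner b0), ∀ r, T.Pair b0 (r, s) →
      D.Nonempty ∧ T.State b0 (fun t => if t ∈ D then T.third (s t) (r t) else r t) ∧
      ∏ t ∈ D, (if r t = T.nb (s t) then ω else ω⁻¹) +
        ∏ t ∈ D, (if T.third (s t) (r t) = T.nb (s t) then ω else ω⁻¹) = 0 := by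
    intro s
    by_cases hs : ∃ r0, T.Pair b0 (r0, s)
    · obtain ⟨r0, h0⟩ := hs
      obtain ⟨D, π, σ, hc, hσ, hsum⟩ := hcyc r0 s h0
      exact ⟨D, fun r h => ⟨hc.ne, flip_good hω h0 h hc hσ hsum⟩⟩
    · exact ⟨∅, fun r h => absurd ⟨r, h⟩ hs⟩
  choose D hD using hD
  refine Finset.sum_involution
    (fun x _ => (fun t => if t ∈ D x.2 then T.third (x.2 t) (x.1 t) else x.1 t, x.2))
    ?_ ?_ ?_ ?_
  · rintro ⟨r, s⟩ hx
    have h := (hD s r (Finset.mem_filter.1 hx).2).2.2
    unfold wt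
    simp only [Finset.prod_mul_distrib, ← map_prod]
    rw [← add_mul, ← map_add, ← Finset.prod_mul_prod_compl (D s),
      ← Finset.prod_mul_prod_compl (D s)]
    rw [Finset.prod_congr rfl (s₁ := D s) (s₂ := D s)
      (f := fun t => if (if t ∈ D s then T.third (s t) (r t) else r t) = T.nb (s t) then ω
        else ω⁻¹) (g := fun t => if T.third (s t) (r t) = T.nb (s t) then ω else ω⁻¹)
      (fun t ht => by simp only [ht, if_true]),
      Finset.prod_congr rfl (s₁ := (D s)ᶜ) (s₂ := (D s)ᶜ)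
      (f := fun t => if (if t ∈ D s then T.third (s t) (r t) else r t) = T.nb (s t) then ω
        else ω⁻¹) (g := fun t => if r t = T.nb (s t) then ω else ω⁻¹)
      (fun t ht => by simp only [Finset.mem_compl.1 ht, if_false]), ← add_mul, h]
    simp
  · rintro ⟨r, s⟩ hx - h
    obtain ⟨t, ht⟩ := (hD s r (Finset.mem_filter.1 hx).2).1
    have := congrFun (congrArg Prod.fst h) t
    simp only [ht, if_true] at this
    exact third_ne_right _ _ this
  · rintro ⟨r, s⟩ hx
    have h := (Finset.mem_filter.1 hx).2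
    refine Finset.mem_filter.2 ⟨Finset.mem_univ _, (hD s r h).2.1, h.2.1, fun t => ?_⟩
    simp only
    split_ifs
    · exact third_ne_left _ _
    · exact h.2.2 t
  · rintro ⟨r, s⟩ hx
    have h := (Finset.mem_filter.1 hx).2
    refine Prod.ext ?_ rfl
    funext t
    simp only
    split_ifs with ht
    · exact third_third (by rw [h.1.blk_eq, h.2.1.blk_eq]) (h.2.2 t)
    · rfl

open Classical in
lemma fiber_sum {ω : ℂ} (hω : ω ^ 3 = Complex.I) (a : T.E → ℝ)
    (ha : ∀ (u u' : T.Inner b0 → T.E), T.State b0 u →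
      (∀ t, T.blk (u' t) = t.1) → (∀ t, u' t ≠ u t) → ∀ C π, T.IsCyc b0 u u' C π →
        ∃ σ n : ℝ, (σ = 1 ∨ σ = -1) ∧ 0 < n ∧ ∑ t ∈ C, T.eps (u t) (u' t) = -3 * σ ∧
          ∑ t ∈ C, (a (u t) - a (u' t)) = σ * n)
    {r0 s0 : T.Inner b0 → T.E} (h0 : T.Pair b0 (r0, s0)) :
    ∃ (c : ℕ) (G : ℂ[X]) (A : ℝ), 0 < A ∧
      ∑ x ∈ (univ.filter (T.Pair b0)).filter (fun x => (fun t => T.third (x.2 t) (x.1 t)) =
        fun t => T.third (s0 t) (r0 t)), T.wt b0 ω a x = X ^ c * G ∧
      G.eval 0 = (-Complex.I) ^ c * A := by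
  obtain ⟨hr0, hs0, hne0⟩ := h0
  simp only at hr0 hs0 hne0
  have b0' : ∀ t, T.blk (r0 t) = T.blk (s0 t) := fun t => by rw [hr0.blk_eq, hs0.blk_eq]
  choose ρ hρ using fun t => hs0.surj (hr0.nonroot t)
  have hρinj : Function.Injective ρ := fun t t' h => hr0.inj _ _ (by rw [← hρ, h, hρ])
  set π : Equiv.Perm (T.Inner b0) := Equiv.ofBijective ρ (Finite.injective_iff_bijective.1 hρinj)
    with hπ
  have hπρ : ∀ t, T.tail (s0 (π t)) = T.tail (r0 t) := hρ
  let O := Quotient (Equiv.Perm.SameCycle.setoid π)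
  let q : T.Inner b0 → O := Quotient.mk _
  have hq : ∀ t t', q t = q t' ↔ π.SameCycle t t' := fun t t' => Quotient.eq
  have hqπ : ∀ t, q (π t) = q t := fun t => (hq _ _).2 (by simp [Equiv.Perm.SameCycle.refl])
  have hclosed : ∀ (J : T.Inner b0 → Prop), (∀ t, J t → J (π t)) → ∀ t t', q t = q t' → J t →
      J t' := by
    intro J hJ t t' h ht
    obtain ⟨n, -, rfl⟩ := ((hq _ _).1 h).exists_pow_eq'
    clear h
    induction n with
    | zero => simpa using ht
    | succ n ih => rw [pow_succ', Equiv.Perm.mul_apply]; exact hJ _ ih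
  let _ : Fintype O := Fintype.ofFinite O
  have hcyc : ∀ c : O, T.IsCyc b0 s0 r0 (univ.filter fun t => q t = c) π := by
    intro c
    refine ⟨?_, ?_, fun t _ t' _ h => π.injective h, fun t _ => hπρ t, ?_⟩
    · obtain ⟨t, rfl⟩ := Quotient.exists_rep c
      exact ⟨t, Finset.mem_filter.2 ⟨Finset.mem_univ _, rfl⟩⟩
    · intro t ht
      exact Finset.mem_filter.2 ⟨Finset.mem_univ _, (hqπ t).trans (Finset.mem_filter.1 ht).2⟩
    · rintro J hJ ⟨t, ht⟩ hJπ
      refine Finset.Subset.antisymm hJ fun t' ht' => ?_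
      exact hclosed (· ∈ J) hJπ t t'
        ((Finset.mem_filter.1 (hJ ht)).2.trans (Finset.mem_filter.1 ht').2.symm) ht
  set w : T.Inner b0 → Bool → ℂ[X] := fun t b =>
    if b then C (if s0 t = T.nb (r0 t) then ω else ω⁻¹) * (1 + C (a (r0 t) : ℂ) * X)
    else C (if r0 t = T.nb (s0 t) then ω else ω⁻¹) * (1 + C (a (s0 t) : ℂ) * X) with hw
  have hstate : ∀ f : O → Bool, T.State b0 (fun t => if f (q t) then s0 t else r0 t) := by
    intro f
    refine ⟨fun t => ?_, fun t t' h' => ?_, fun t => ?_⟩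
    · split_ifs
      · exact hs0.blk_eq t
      · exact hr0.blk_eq t
    · by_cases ht : f (q t) = true <;> by_cases ht' : f (q t') = true <;>
        simp only [ht, ht', if_true, if_false, Bool.false_eq_true] at h'
      · exact hs0.inj _ _ h'
      · rw [← hπρ] at h'
        rw [hs0.inj _ _ h', hqπ] at ht
        exact absurd ht ht'
      · rw [← hπρ] at h'
        rw [← hs0.inj _ _ h', hqπ] at ht'
        exact absurd ht' ht
      · exact hr0.inj _ _ h'
    · split_ifs
      · exact hs0.nonroot t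
      · exact hr0.nonroot t
  have hbij : ∑ x ∈ (univ.filter (T.Pair b0)).filter (fun x =>
      (fun t => T.third (x.2 t) (x.1 t)) = fun t => T.third (s0 t) (r0 t)), T.wt b0 ω a x =
      ∑ f : O → Bool, ∏ t, w t (f (q t)) := by
    symm
    refine Finset.sum_bij (fun f _ => (fun t => if f (q t) then s0 t else r0 t,
      fun t => if !(f (q t)) then s0 t else r0 t)) ?_ ?_ ?_ ?_
    · intro f _
      refine Finset.mem_filter.2 ⟨Finset.mem_filter.2 ⟨Finset.mem_univ _, hstate f,
        hstate (fun c => !(f c)), fun t => ?_⟩, ?_⟩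
      · simp only
        cases f (q t)
        · simpa using hne0 t
        · simpa using (hne0 t).symm
      · funext t
        simp only
        cases f (q t)
        · simp
        · simpa using third_comm (b0' t) (hne0 t)
    · intro f _ f' _ h
      funext c
      obtain ⟨t, rfl⟩ := Quotient.exists_rep c
      have := congrFun (congrArg Prod.fst h) t
      change (if f (q t) then s0 t else r0 t) = (if f' (q t) then s0 t else r0 t) at this
      change f (q t) = f' (q t)
      cases h3 : f (q t) <;> cases h4 : f' (q t) <;>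
        simp only [h3, h4, if_true, if_false, Bool.false_eq_true] at this
      · rfl
      · exact absurd this (hne0 t)
      · exact absurd this.symm (hne0 t)
      · rfl
    · rintro ⟨r, s⟩ hx
      obtain ⟨hx1, hx2⟩ := Finset.mem_filter.1 hx
      obtain ⟨hr, hs, hne⟩ := (Finset.mem_filter.1 hx1).2
      simp only at hr hs hne hx2
      have hcases : ∀ t, (r t = r0 t ∧ s t = s0 t) ∨ (r t = s0 t ∧ s t = r0 t) := fun t =>
        pair_of_third_eq (b0' t) (hne0 t) (by rw [hs.blk_eq, hs0.blk_eq])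
          (by rw [hr.blk_eq, hs0.blk_eq]) (hne t) (congrFun hx2 t)
      have hJ : ∀ t, r t = s0 t → r (π t) = s0 (π t) := by
        intro t ht
        refine ((hcases (π t)).resolve_left fun h' => ?_).1
        have h1 : s t = r0 t := ((hcases t).resolve_left fun h'' => hne0 t
          (h''.1.symm.trans ht)).2
        have h2 : π t = t := hs.inj _ _ (by rw [h'.2, hπρ, h1])
        have h3 := hπρ t
        rw [h2] at h3
        exact hne0 t (T.tail_inj_face (b0' t) h3.symm)
      have hiff : ∀ t, r (q t).out = s0 (q t).out ↔ r t = s0 t := fun t =>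
        ⟨hclosed (fun t => r t = s0 t) hJ _ _ (Quotient.out_eq _),
          hclosed (fun t => r t = s0 t) hJ _ _ (Quotient.out_eq _).symm⟩
      refine ⟨fun c => decide (r c.out = s0 c.out), Finset.mem_univ _, Prod.ext ?_ ?_⟩
      · funext t
        simp only [hiff, decide_eq_true_eq]
        rcases hcases t with ⟨h1, h2⟩ | ⟨h1, h2⟩
        · rw [h1, if_neg (hne0 t)]
        · rw [h1, if_pos rfl]
      · funext t
        simp only [hiff, Bool.not_eq_true', decide_eq_false_iff_not]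
        rcases hcases t with ⟨h1, h2⟩ | ⟨h1, h2⟩
        · rw [h1, if_pos (hne0 t), h2]
        · rw [h1, if_neg (by simp), h2]
    · intro f _
      unfold wt
      refine Finset.prod_congr rfl fun t _ => ?_
      simp only [hw]
      by_cases h3 : f (q t) = true
      · simp [h3]
      · simp [h3]
  have hprod : ∑ f : O → Bool, ∏ t, w t (f (q t)) =
      ∏ c : O, ∑ b : Bool, ∏ t ∈ univ.filter (fun t => q t = c), w t b := by
    rw [Finset.prod_univ_sum, Fintype.piFinset_univ]
    refine Finset.sum_congr rfl fun f _ => ?_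
    rw [← Finset.prod_fiberwise univ q]
    refine Finset.prod_congr rfl fun c _ => Finset.prod_congr rfl fun t ht => ?_
    rw [(Finset.mem_filter.1 ht).2]
  have hfac : ∀ c : O, ∃ (G : ℂ[X]) (n : ℝ), 0 < n ∧
      ∑ b : Bool, ∏ t ∈ univ.filter (fun t => q t = c), w t b = X * G ∧
        G.eval 0 = -Complex.I * n := by
    intro c
    obtain ⟨σ, n, hσ, hn, h1, h2⟩ := ha s0 r0 hs0 hr0.blk_eq hne0 _ _ (hcyc c)
    set D := univ.filter fun t => q t = c
    have p1 : ∏ t ∈ D, (if r0 t = T.nb (s0 t) then ω else ω⁻¹) = -σ * Complex.I :=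
      prod_eta D _ hω hσ h1
    have p2 : ∏ t ∈ D, (if s0 t = T.nb (r0 t) then ω else ω⁻¹) =
        -((-σ : ℝ) : ℂ) * Complex.I := by
      refine prod_eta D _ hω (by rcases hσ with h | h <;> simp [h]) ?_
      rw [mul_neg, ← h1, ← Finset.sum_neg_distrib]
      refine Finset.sum_congr rfl fun t _ => ?_
      simp only [eps, (third_eq_nb_iff (b0' t) (hne0 t)).2.2]
      split_ifs <;> simp
    obtain ⟨G1, g1, g1'⟩ := prod_one_add_X D (fun t => (a (r0 t) : ℂ))
    obtain ⟨G2, g2, g2'⟩ := prod_one_add_X D (fun t => (a (s0 t) : ℂ))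
    refine ⟨C (σ * Complex.I) * (G1 - G2), n, hn, ?_, ?_⟩
    · rw [Fintype.sum_bool]
      simp only [hw, if_true, Bool.false_eq_true, if_false, Finset.prod_mul_distrib, ← map_prod,
        p1, p2, g1, g2]
      simp only [Complex.ofReal_neg, neg_neg, neg_mul, map_neg]
      ring
    · have h3 : ((∑ t ∈ D, (a (s0 t) - a (r0 t)) : ℝ) : ℂ) = σ * n := by rw [h2]; simp
      rw [Complex.ofReal_sum] at h3
      simp only [Complex.ofReal_sub, Finset.sum_sub_distrib] at h3
      rw [Polynomial.eval_mul, Polynomial.eval_C, Polynomial.eval_sub, g1', g2']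
      have h4 : (σ : ℂ) * σ = 1 := by rcases hσ with h | h <;> simp [h]
      linear_combination (-(σ : ℂ) * Complex.I) * h3 - Complex.I * n * h4
  choose G n hn hG hG' using hfac
  refine ⟨Fintype.card O, ∏ c, G c, ∏ c, n c, Finset.prod_pos fun c _ => hn c, ?_, ?_⟩
  · rw [hbij, hprod]
    simp only [hG, Finset.prod_mul_distrib, Finset.prod_const, Finset.card_univ]
  · rw [Polynomial.eval_prod]
    simp only [hG', Finset.prod_mul_distrib, Finset.prod_const, Finset.card_univ,
      Complex.ofReal_prod]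

theorem exists_acyclic_pair (hI : T.Irred) : ∃ r s : T.Inner b0 → T.E, T.Pair b0 (r, s) ∧
    ¬ ∃ C π, T.IsCyc b0 r (fun t => T.third (s t) (r t)) C π := by
  classical
  by_contra hcon
  push Not at hcon
  obtain ⟨ω, hω⟩ := IsAlgClosed.exists_pow_nat_eq Complex.I (n := 3) (by norm_num)
  obtain ⟨a, ha⟩ := T.exists_weight b0
  have h0 := sum_wt_eq_zero hω a (fun r s h => by
    obtain ⟨D, π, hc⟩ := hcon r s h
    obtain ⟨σ, n, hσ, -, h1, -⟩ := ha r _ h.1 (fun t => by rw [blk_third, h.2.1.blk_eq])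
      (fun t => third_ne_right _ _) D π hc
    exact ⟨D, π, σ, hc, hσ, h1⟩)
  rw [← Finset.sum_fiberwise_of_maps_to (t := (univ.filter (T.Pair b0)).image
    fun x => fun t => T.third (x.2 t) (x.1 t)) (g := fun x => fun t => T.third (x.2 t) (x.1 t))
    (fun x hx => Finset.mem_image_of_mem _ hx)] at h0
  obtain ⟨r, s, hrs⟩ := exists_pair (b0 := b0) hI
  refine sum_poly_ne_zero _ ⟨_, Finset.mem_image_of_mem _
    (Finset.mem_filter.2 ⟨Finset.mem_univ (r, s), hrs⟩)⟩ _ (-Complex.I)
    (neg_ne_zero.2 Complex.I_ne_zero) (fun p hp => ?_) h0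
  obtain ⟨⟨r0, s0⟩, hx, rfl⟩ := Finset.mem_image.1 hp
  convert fiber_sum hω a ha (Finset.mem_filter.1 hx).2

end Tri

end Vale.Agent.P039
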