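import Mathlib

/-!
Abstract two-coloured triangulations of the sphere (duals of cubic bipartite plane graphs).
Edges `E` are oriented with the black face on the left; `nb`, `nw` give the next edge
around the black and the white face.
-/

namespace Vale.Agent.P039

open Finset

universe u

/-- An abstract face-two-coloured spherical triangulation with 3-edge-connected dual. -/
structure Tri : Type (u + 1) where
  E : Type u
  V : Type u
  B : Type u
  W : Type u
  [fE : Fintype E]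
  [fV : Fintype V]
  [fB : Fintype B]
  [fW : Fintype W]
  [dE : DecidableEq E]
  [dV : DecidableEq V]
  [dB : DecidableEq B]
  [dW : DecidableEq W]
  tail : E → V
  blk : E → B
  wht : E → W
  nb : E → E
  nw : E → E
  nb3 : ∀ e, nb (nb (nb e)) = e
  nw3 : ∀ e, nw (nw (nw e)) = e
  nb_ne : ∀ e, nb e ≠ e
  nw_ne : ∀ e, nw e ≠ e
  blk_eq : ∀ e e', blk e' = blk e ↔ (e' = e ∨ e' = nb e ∨ e' = nb (nb e))
  wht_eq : ∀ e e', wht e' = wht e ↔ (e' = e ∨ e' = nw e ∨ e' = nw (nw e))
  tail_n : ∀ e, tail (nw e) = tail (nb e)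
  tail_surj : Function.Surjective tail
  blk_surj : Function.Surjective blk
  wht_surj : Function.Surjective wht
  link : ∀ (v : V) (φ : B → ℝ) (ψ : W → ℝ),
    (∀ e, (tail e = v ∨ tail (nb e) = v) → φ (blk e) = ψ (wht e)) →
      ∀ e e', tail e = v → tail e' = v → φ (blk e) = φ (blk e')
  c3 : ∀ (e1 e2 : E) (φ : B → ℝ) (ψ : W → ℝ),
    (∀ e, e ≠ e1 → e ≠ e2 → φ (blk e) = ψ (wht e)) → ∀ b w, φ b = ψ w
  euler : Fintype.card V + Fintype.card B + Fintype.card W = Fintype.card E + 2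

attribute [instance] Tri.fE Tri.fV Tri.fB Tri.fW Tri.dE Tri.dV Tri.dB Tri.dW

namespace Tri

variable (T : Tri.{u})

/-- exchange the two colours -/
def swap : Tri.{u} where
  E := T.E
  V := T.V
  B := T.W
  W := T.B
  tail := T.tail
  blk := T.wht
  wht := T.blk
  nb := T.nw
  nw := T.nb
  nb3 := T.nw3
  nw3 := T.nb3
  nb_ne := T.nw_ne
  nw_ne := T.nb_ne
  blk_eq := T.wht_eq
  wht_eq := T.blk_eq
  tail_n := fun e => (T.tail_n e).symm
  tail_surj := T.tail_surj
  blk_surj := T.wht_surj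
  wht_surj := T.blk_surj
  link := fun v ψ φ h e e' he he' => by
    have h' : ∀ e, (T.tail e = v ∨ T.tail (T.nb e) = v) → φ (T.blk e) = ψ (T.wht e) :=
      fun e hv => (h e (by rwa [T.tail_n])).symm
    rw [← h' e (Or.inl he), ← h' e' (Or.inl he')]
    exact T.link v φ ψ h' e e' he he'
  c3 := fun e1 e2 ψ φ h w b => (T.c3 e1 e2 φ ψ (fun e h1 h2 => (h e h1 h2).symm) b w).symm
  euler := by have := T.euler; omega

lemma nb_inj : Function.Injective T.nb := fun a b h => by
  rw [← T.nb3 a, h, T.nb3]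

/-- the permutation given by `nb` -/
def nbE : T.E ≃ T.E where
  toFun := T.nb
  invFun := fun e => T.nb (T.nb e)
  left_inv := T.nb3
  right_inv := T.nb3

lemma sum_nb {M : Type*} [AddCommMonoid M] (f : T.E → M) : ∑ e, f (T.nb e) = ∑ e, f e :=
  Equiv.sum_comp T.nbE f

lemma sum_nw {M : Type*} [AddCommMonoid M] (f : T.E → M) : ∑ e, f (T.nw e) = ∑ e, f e :=
  T.swap.sum_nb f

@[simp] lemma blk_nb (e : T.E) : T.blk (T.nb e) = T.blk e :=
  (T.blk_eq e _).2 (Or.inr (Or.inl rfl))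

@[simp] lemma wht_nw (e : T.E) : T.wht (T.nw e) = T.wht e :=
  (T.wht_eq e _).2 (Or.inr (Or.inl rfl))

lemma nb2_ne (e : T.E) : T.nb (T.nb e) ≠ e := fun h => by
  have := congrArg T.nb h
  rw [T.nb3] at this
  exact T.nb_ne e this.symm

lemma nb2_ne_nb (e : T.E) : T.nb (T.nb e) ≠ T.nb e := T.nb_ne _

lemma fiber_blk (e : T.E) :
    (univ.filter fun e' => T.blk e' = T.blk e) = {e, T.nb e, T.nb (T.nb e)} := by
  ext e'
  simp [T.blk_eq]

lemma sum_fiber_blk {M : Type*} [AddCommMonoid M] (e : T.E) (f : T.E → M) :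
    ∑ e' ∈ univ.filter (fun e' => T.blk e' = T.blk e), f e' =
      f e + f (T.nb e) + f (T.nb (T.nb e)) := by
  rw [T.fiber_blk, Finset.sum_insert, Finset.sum_insert, Finset.sum_singleton, add_assoc]
  · simp [(T.nb2_ne_nb e).symm]
  · simp [(T.nb_ne e).symm, (T.nb2_ne e).symm]

lemma card_fiber_blk (b : T.B) : (univ.filter fun e => T.blk e = b).card = 3 := by
  obtain ⟨e, rfl⟩ := T.blk_surj b
  have := T.sum_fiber_blk e (fun _ => (1 : ℕ))
  simpa using this

lemma sum_blk (g : T.B → ℝ) : ∑ e, g (T.blk e) = 3 * ∑ b, g b := by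
  rw [← Finset.sum_fiberwise univ T.blk, Finset.mul_sum]
  refine Finset.sum_congr rfl fun b _ => ?_
  rw [Finset.sum_congr rfl (g := fun _ => g b)]
  · rw [Finset.sum_const, T.card_fiber_blk]; simp
  · intro e he
    rw [(Finset.mem_filter.1 he).2]

lemma sum_wht (g : T.W → ℝ) : ∑ e, g (T.wht e) = 3 * ∑ w, g w := T.swap.sum_blk g

lemma card_filter_blk (D : Finset T.B) :
    (univ.filter fun e => T.blk e ∈ D).card = 3 * D.card := by
  rw [Finset.card_eq_sum_card_fiberwise (f := T.blk) (t := D)]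
  · rw [Finset.sum_congr rfl (g := fun _ => 3)]
    · simp [mul_comm]
    · intro b hb
      rw [← T.card_fiber_blk b]
      congr 1
      ext e
      simp only [mem_filter, mem_univ, true_and, and_iff_right_iff_imp]
      rintro rfl
      exact hb
  · intro e he
    simpa using he

lemma card_filter_wht (D : Finset T.W) :
    (univ.filter fun e => T.wht e ∈ D).card = 3 * D.card := T.swap.card_filter_blk D

lemma card_E_blk : Fintype.card T.E = 3 * Fintype.card T.B := by
  have := T.card_filter_blk univ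
  simpa using this

lemma card_E_wht : Fintype.card T.E = 3 * Fintype.card T.W := T.swap.card_E_blk

lemma card_W : Fintype.card T.W = Fintype.card T.B := by
  have := T.card_E_blk
  have := T.card_E_wht
  omega

lemma card_V : Fintype.card T.V = Fintype.card T.B + 2 := by
  have := T.card_E_blk
  have := T.card_W
  have := T.euler
  omega

lemma conn (φ : T.B → ℝ) (ψ : T.W → ℝ) (h : ∀ e, φ (T.blk e) = ψ (T.wht e)) (b : T.B)
    (w : T.W) : φ b = ψ w := by
  obtain ⟨e, -⟩ := T.blk_surj b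
  exact T.c3 e e φ ψ (fun e _ _ => h e) b w

/-- boundary of a face potential -/
def bd (φ : T.B → ℝ) (ψ : T.W → ℝ) (e : T.E) : ℝ := φ (T.blk e) - ψ (T.wht e)

/-- coboundary of a vertex function -/
def df (f : T.V → ℝ) (e : T.E) : ℝ := f (T.tail (T.nb e)) - f (T.tail e)

/-- circulations -/
def IsCirc (z : T.E → ℝ) : Prop := ∀ f : T.V → ℝ, ∑ e, z e * T.df f e = 0

lemma isCirc_bd (φ : T.B → ℝ) (ψ : T.W → ℝ) : T.IsCirc (T.bd φ ψ) := by
  intro f
  have h1 : ∑ e, φ (T.blk e) * f (T.tail (T.nb e)) = ∑ e, φ (T.blk e) * f (T.tail e) := by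
    rw [← T.sum_nb (fun e => φ (T.blk e) * f (T.tail e))]
    simp
  have h2 : ∑ e, ψ (T.wht e) * f (T.tail (T.nb e)) = ∑ e, ψ (T.wht e) * f (T.tail e) := by
    rw [← T.sum_nw (fun e => ψ (T.wht e) * f (T.tail e))]
    simp [T.tail_n]
  have e1 : ∀ e, T.bd φ ψ e * T.df f e =
      (φ (T.blk e) * f (T.tail (T.nb e)) - φ (T.blk e) * f (T.tail e)) -
        (ψ (T.wht e) * f (T.tail (T.nb e)) - ψ (T.wht e) * f (T.tail e)) := by
    intro e; unfold bd df; ring
  simp_rw [e1, Finset.sum_sub_distrib, h1, h2]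
  ring

lemma vconn (f : T.V → ℝ) (h : ∀ e, T.df f e = 0) (u u' : T.V) : f u = f u' := by
  have h1 : ∀ e, f (T.tail (T.nb e)) = f (T.tail e) := fun e => sub_eq_zero.1 (h e)
  have h2 : ∀ e, f (T.tail (T.nw e)) = f (T.tail e) := fun e => by rw [T.tail_n, h1]
  choose sb hsb using T.blk_surj
  choose sw hsw using T.wht_surj
  have hb : ∀ e, f (T.tail (sb (T.blk e))) = f (T.tail e) := by
    intro e
    rcases (T.blk_eq e _).1 (hsb (T.blk e)) with h | h | h <;> rw [h]
    · exact h1 e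
    · rw [h1, h1]
  have hw : ∀ e, f (T.tail (sw (T.wht e))) = f (T.tail e) := by
    intro e
    rcases (T.wht_eq e _).1 (hsw (T.wht e)) with h | h | h <;> rw [h]
    · exact h2 e
    · rw [h2, h2]
  obtain ⟨e, rfl⟩ := T.tail_surj u
  obtain ⟨e', rfl⟩ := T.tail_surj u'
  rw [← hb e, ← hw e']
  exact T.conn (fun b => f (T.tail (sb b))) (fun w => f (T.tail (sw w)))
    (fun e => by rw [hb, hw]) _ _

end Tri

/-- extension by zero from a finite set -/
def ext0 {α : Type*} [DecidableEq α] (s : Finset α) : (s → ℝ) →ₗ[ℝ] (α → ℝ) where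
  toFun x a := if h : a ∈ s then x ⟨a, h⟩ else 0
  map_add' x y := by
    ext a
    by_cases h : a ∈ s <;> simp [h]
  map_smul' c x := by
    ext a
    by_cases h : a ∈ s <;> simp [h]

lemma ext0_mem {α : Type*} [DecidableEq α] (s : Finset α) (x : s → ℝ) (a : s) :
    ext0 s x a = x a := by
  simp [ext0, a.2]

lemma ext0_not_mem {α : Type*} [DecidableEq α] (s : Finset α) (x : s → ℝ) {a : α}
    (h : a ∉ s) : ext0 s x a = 0 := by
  simp [ext0, h]

namespace Tri

variable (T : Tri.{u})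

/-- the map whose injectivity gives the Euler inequalities -/
def Lmap (DB : Finset T.B) (DW : Finset T.W) (U : Finset T.V) (E' : Finset T.E) :
    ((DB → ℝ) × (DW → ℝ) × (U → ℝ)) →ₗ[ℝ] (E' → ℝ) where
  toFun x e := T.bd (ext0 DB x.1) (ext0 DW x.2.1) e + T.df (ext0 U x.2.2) e
  map_add' x y := by
    ext e
    simp only [bd, df, Prod.fst_add, Prod.snd_add, map_add, Pi.add_apply]
    ring
  map_smul' c x := by
    ext e
    simp only [bd, df, Prod.smul_fst, Prod.smul_snd, map_smul, Pi.smul_apply, smul_eq_mul,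
      RingHom.id_apply]
    ring

lemma Lmap_inj (DB : Finset T.B) (DW : Finset T.W) (U : Finset T.V) (E' : Finset T.E)
    (hD : (∃ b, b ∉ DB) ∨ (∃ w, w ∉ DW))
    (hE : ∀ e, T.blk e ∈ DB ∨ T.wht e ∈ DW → e ∈ E')
    (hU : ∀ f : T.V → ℝ, (∀ v, v ∉ U → f v = 0) → (∀ e ∈ E', T.df f e = 0) → ∀ v, f v = 0) :
    Function.Injective (T.Lmap DB DW U E') := by
  rw [injective_iff_map_eq_zero]
  rintro ⟨x, y, g⟩ h
  set φ := ext0 DB x with hφ
  set ψ := ext0 DW y with hψ
  set f := ext0 U g with hf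
  have h1 : ∀ e ∈ E', T.bd φ ψ e + T.df f e = 0 := fun e he => congrFun h ⟨e, he⟩
  have h2 : ∀ e, e ∉ E' → T.bd φ ψ e = 0 := by
    intro e he
    have hb : T.blk e ∉ DB := fun h => he (hE e (Or.inl h))
    have hw : T.wht e ∉ DW := fun h => he (hE e (Or.inr h))
    unfold bd
    rw [hφ, hψ, ext0_not_mem _ _ hb, ext0_not_mem _ _ hw, sub_zero]
  have h3 : ∑ e, T.bd φ ψ e ^ 2 = 0 := by
    have := T.isCirc_bd φ ψ f
    rw [← neg_eq_zero, ← Finset.sum_neg_distrib, ← this]
    refine Finset.sum_congr rfl fun e _ => ?_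
    by_cases he : e ∈ E'
    · have := h1 e he
      rw [show T.df f e = -T.bd φ ψ e by linarith]; ring
    · rw [h2 e he]; ring
  have h4 : ∀ e, T.bd φ ψ e = 0 := by
    intro e
    have := (Finset.sum_eq_zero_iff_of_nonneg (fun e _ => sq_nonneg (T.bd φ ψ e))).1 h3 e
      (Finset.mem_univ e)
    exact pow_eq_zero_iff (two_ne_zero) |>.1 this
  have h5 := T.conn φ ψ (fun e => sub_eq_zero.1 (h4 e))
  have h6 : (∀ b, φ b = 0) ∧ (∀ w, ψ w = 0) := by
    rcases hD with ⟨b, hb⟩ | ⟨w, hw⟩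
    · have hb0 : φ b = 0 := ext0_not_mem _ _ hb
      obtain ⟨e, -⟩ := T.blk_surj b
      have hw0 : ∀ w, ψ w = 0 := fun w => by rw [← h5 b w, hb0]
      exact ⟨fun b' => by rw [h5 b' (T.wht e), hw0], hw0⟩
    · have hw0 : ψ w = 0 := ext0_not_mem _ _ hw
      obtain ⟨e, -⟩ := T.wht_surj w
      have hb0 : ∀ b, φ b = 0 := fun b => by rw [h5 b w, hw0]
      exact ⟨hb0, fun w' => by rw [← h5 (T.blk e) w', hb0]⟩
  have h7 := hU f (fun v hv => ext0_not_mem _ _ hv) (fun e he => by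
    have := h1 e he
    rw [h4 e] at this
    linarith)
  refine Prod.ext ?_ (Prod.ext ?_ ?_)
  · ext a; exact (ext0_mem DB x a).symm.trans (h6.1 a)
  · ext a; exact (ext0_mem DW y a).symm.trans (h6.2 a)
  · ext a; exact (ext0_mem U g a).symm.trans (h7 a)

lemma finrank_dom (DB : Finset T.B) (DW : Finset T.W) (U : Finset T.V) :
    Module.finrank ℝ ((DB → ℝ) × (DW → ℝ) × (U → ℝ)) = DB.card + DW.card + U.card := by
  simp [Module.finrank_prod, add_assoc]

lemma dim_ineq (DB : Finset T.B) (DW : Finset T.W) (U : Finset T.V) (E' : Finset T.E)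
    (hD : (∃ b, b ∉ DB) ∨ (∃ w, w ∉ DW))
    (hE : ∀ e, T.blk e ∈ DB ∨ T.wht e ∈ DW → e ∈ E')
    (hU : ∀ f : T.V → ℝ, (∀ e ∈ E', T.df f e = 0) → ∀ u ∈ U, ∀ u' ∈ U, f u = f u') :
    DB.card + DW.card + U.card ≤ E'.card + 1 := by
  have key : ∀ U' : Finset T.V, (∀ f : T.V → ℝ, (∀ v, v ∉ U' → f v = 0) →
      (∀ e ∈ E', T.df f e = 0) → ∀ v, f v = 0) → DB.card + DW.card + U'.card ≤ E'.card := by
    intro U' hU'
    have := LinearMap.finrank_le_finrank_of_injective (T.Lmap_inj DB DW U' E' hD hE hU')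
    rw [T.finrank_dom] at this
    simpa using this
  rcases U.eq_empty_or_nonempty with rfl | ⟨u0, hu0⟩
  · have := key ∅ (fun f hf _ v => hf v (by simp))
    omega
  · have := key (U.erase u0) (fun f hf hdf v => by
      by_cases hv : v ∈ U.erase u0
      · rw [hU f hdf v (Finset.mem_of_mem_erase hv) u0 hu0]
        exact hf u0 (by simp)
      · exact hf v hv)
    rw [Finset.card_erase_of_mem hu0] at this
    have := Finset.card_pos.2 ⟨u0, hu0⟩
    omega

/-- every circulation is a boundary -/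
lemma exists_potential (b0 : T.B) (z : T.E → ℝ) (hz : T.IsCirc z) :
    ∃ (φ : T.B → ℝ) (ψ : T.W → ℝ), φ b0 = 0 ∧ ∀ e, z e = T.bd φ ψ e := by
  obtain ⟨e0, -⟩ := T.blk_surj b0
  set v0 := T.tail e0
  have hinj := T.Lmap_inj (univ.erase b0) univ (univ.erase v0) univ (Or.inl ⟨b0, by simp⟩)
    (fun e _ => Finset.mem_univ e) (fun f hf hdf v => by
      rw [T.vconn f (fun e => hdf e (Finset.mem_univ e)) v v0]
      exact hf v0 (by simp))
  have hsurj : Function.Surjective (T.Lmap (univ.erase b0) univ (univ.erase v0) univ) := by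
    rw [← LinearMap.injective_iff_surjective_of_finrank_eq_finrank]
    · exact hinj
    · rw [T.finrank_dom, Finset.card_erase_of_mem (Finset.mem_univ _),
        Finset.card_erase_of_mem (Finset.mem_univ _)]
      have h1 := T.euler
      have h2 : 0 < Fintype.card T.B := Fintype.card_pos_iff.2 ⟨b0⟩
      have h3 : 0 < Fintype.card T.V := Fintype.card_pos_iff.2 ⟨v0⟩
      simp only [Finset.card_univ, Module.finrank_fintype_fun_eq_card, Fintype.card_coe]
      omega
  obtain ⟨⟨x, y, g⟩, h⟩ := hsurj (fun e => z e)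
  set φ := ext0 (univ.erase b0) x with hφ
  set ψ := ext0 univ y with hψ
  set f := ext0 (univ.erase v0) g with hf
  have h1 : ∀ e, T.bd φ ψ e + T.df f e = z e := fun e => congrFun h ⟨e, Finset.mem_univ e⟩
  have h3 : ∑ e, T.df f e ^ 2 = 0 := by
    have a1 := T.isCirc_bd φ ψ f
    have a2 := hz f
    have : ∑ e, T.df f e ^ 2 = ∑ e, z e * T.df f e - ∑ e, T.bd φ ψ e * T.df f e := by
      rw [← Finset.sum_sub_distrib]
      refine Finset.sum_congr rfl fun e _ => ?_
      rw [← h1 e]; ring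
    rw [this, a1, a2, sub_zero]
  refine ⟨φ, ψ, ext0_not_mem _ _ (by simp), fun e => ?_⟩
  have := (Finset.sum_eq_zero_iff_of_nonneg (fun e _ => sq_nonneg (T.df f e))).1 h3 e
      (Finset.mem_univ e)
  rw [← h1 e, pow_eq_zero_iff (two_ne_zero) |>.1 this, add_zero]

lemma circ_two (e1 e2 : T.E) (z : T.E → ℝ) (hz : T.IsCirc z)
    (hs : ∀ e, e ≠ e1 → e ≠ e2 → z e = 0) (e : T.E) : z e = 0 := by
  obtain ⟨φ, ψ, -, h⟩ := T.exists_potential (T.blk e1) z hz
  rw [h e]
  exact sub_eq_zero.2 (T.c3 e1 e2 φ ψ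
    (fun e h1 h2 => sub_eq_zero.1 ((h e).symm.trans (hs e h1 h2))) _ _)

lemma no_loop (e : T.E) : T.tail (T.nb e) ≠ T.tail e := by
  intro h
  have := T.circ_two e e (fun e' => if e' = e then 1 else 0) (fun f => by
    simp [df, h]) (fun e' h1 _ => by simp [h1]) e
  simp at this

lemma tail_inj_face {e e' : T.E} (hb : T.blk e' = T.blk e) (ht : T.tail e' = T.tail e) :
    e' = e := by
  rcases (T.blk_eq e e').1 hb with h | h | h
  · exact h
  · exact absurd (h ▸ ht) (T.no_loop e)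
  · have := T.no_loop (T.nb (T.nb e))
    rw [T.nb3, ← h] at this
    exact absurd ht.symm this

/-- the edge `e` is incident with the vertex `v` -/
def At (v : T.V) (e : T.E) : Prop := T.tail e = v ∨ T.tail (T.nb e) = v

lemma link_all (v : T.V) (φ : T.B → ℝ) (ψ : T.W → ℝ)
    (h : ∀ e, T.At v e → φ (T.blk e) = ψ (T.wht e)) {e e' : T.E} (he : T.At v e)
    (he' : T.At v e') : φ (T.blk e) = φ (T.blk e') := by
  have key : ∀ e, T.At v e → ∃ e1, T.tail e1 = v ∧ T.blk e1 = T.blk e := by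
    rintro e (he | he)
    · exact ⟨e, he, rfl⟩
    · exact ⟨T.nb e, he, T.blk_nb e⟩
  obtain ⟨e1, h1, h1'⟩ := key e he
  obtain ⟨e2, h2, h2'⟩ := key e' he'
  rw [← h1', ← h2']
  exact T.link v φ ψ h e1 e2 h1 h2

lemma circ_one (v : T.V) (z : T.E → ℝ) (hz : T.IsCirc z) (e1 : T.E) (he1 : T.At v e1)
    (h : ∀ e, T.At v e → e ≠ e1 → z e = 0) : z e1 = 0 := by
  have := hz (fun u => if u = v then 1 else 0)
  rw [Finset.sum_eq_single e1] at this
  · have hl := T.no_loop e1
    rcases he1 with h1 | h1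
    · have h2 : T.tail (T.nb e1) ≠ v := h1 ▸ hl
      simpa [df, h1, h2] using this
    · have h2 : T.tail e1 ≠ v := fun h => hl (h1.trans h.symm)
      simpa [df, h1, h2] using this
  · intro e _ hne
    by_cases ha : T.At v e
    · rw [h e ha hne, zero_mul]
    · have h1 : T.tail e ≠ v := fun h => ha (Or.inl h)
      have h2 : T.tail (T.nb e) ≠ v := fun h => ha (Or.inr h)
      simp [df, h1, h2]
  · simp

lemma link_one (v : T.V) (φ : T.B → ℝ) (ψ : T.W → ℝ) (e1 : T.E)
    (h : ∀ e, T.At v e → e ≠ e1 → φ (T.blk e) = ψ (T.wht e)) (e : T.E) (he : T.At v e) :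
    φ (T.blk e) = ψ (T.wht e) := by
  by_cases h1 : e = e1
  · subst h1
    exact sub_eq_zero.1 (T.circ_one v _ (T.isCirc_bd φ ψ) e he
      (fun e' ha hne => sub_eq_zero.2 (h e' ha hne)))
  · exact h e he h1

end Tri

end Vale.Agent.P039
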